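import Mathlib

/-!
Smoothness of families of alternating forms on a finite-dimensional space.
-/

open scoped ContDiff Topology
open Set

namespace Vale.Agent.P267.H175

variable {E F Y : Type*} [NormedAddCommGroup E] [NormedSpace ℝ E]
  [NormedAddCommGroup F] [NormedSpace ℝ F] [NormedAddCommGroup Y] [NormedSpace ℝ Y]

/-- Evaluation of alternating forms at a tuple. -/
noncomputable def evL {k : ℕ} (v : Fin k → E) : (E [⋀^Fin k]→L[ℝ] ℝ) →L[ℝ] ℝ :=
  LinearMap.mkContinuous
    { toFun := fun g => g v
      map_add' := fun _ _ => rfl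
      map_smul' := fun _ _ => rfl } (∏ i, ‖v i‖)
    (fun g => by
      rw [mul_comm]
      exact g.le_opNorm v)

@[simp] theorem evL_apply {k : ℕ} (v : Fin k → E) (g : E [⋀^Fin k]→L[ℝ] ℝ) : evL v g = g v := rfl

/-- A family of alternating forms on a finite-dimensional space is smooth iff all its
evaluations are. -/
theorem contDiffAt_alt_iff [FiniteDimensional ℝ E] {k : ℕ} {n : WithTop ℕ∞}
    {f : Y → E [⋀^Fin k]→L[ℝ] ℝ} {y : Y} :
    ContDiffAt ℝ n f y ↔ ∀ v, ContDiffAt ℝ n (fun y => f y v) y := by
  constructor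
  · intro h v
    exact (evL v).contDiff.contDiffAt.comp y h
  · intro h
    let b := Module.finBasis ℝ E
    let T : (E [⋀^Fin k]→L[ℝ] ℝ) →ₗ[ℝ] ((Fin k → Fin (Module.finrank ℝ E)) → ℝ) :=
      { toFun := fun g r => g fun i => b (r i)
        map_add' := fun _ _ => rfl
        map_smul' := fun _ _ => rfl }
    have hT : Function.Injective T := by
      intro g g' hg
      have h1 : g.toAlternatingMap.toMultilinearMap = g'.toAlternatingMap.toMultilinearMap := by
        refine Module.Basis.ext_multilinear (fun _ => b) fun r => ?_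
        exact congrFun hg r
      ext v
      exact congrArg (fun m : MultilinearMap ℝ (fun _ : Fin k => E) ℝ => m v) h1
    obtain ⟨L, hL⟩ := T.exists_leftInverse_of_injective (LinearMap.ker_eq_bot.2 hT)
    have h1 : f = fun y => LinearMap.toContinuousLinearMap L (fun r => f y fun i => b (r i)) := by
      funext y
      exact (LinearMap.congr_fun hL (f y)).symm
    rw [h1]
    refine (LinearMap.toContinuousLinearMap L).contDiff.contDiffAt.comp y ?_
    rw [contDiffAt_pi]
    exact fun r => h _

/-- Smoothness of a family of pullbacks by linear maps. -/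
theorem contDiffAt_comp_alt [FiniteDimensional ℝ E] [FiniteDimensional ℝ F] {k : ℕ}
    {n : WithTop ℕ∞} {f : Y → F [⋀^Fin k]→L[ℝ] ℝ} {A : Y → E →L[ℝ] F} {y : Y}
    (hf : ContDiffAt ℝ n f y) (hA : ContDiffAt ℝ n A y) :
    ContDiffAt ℝ n (fun y => (f y).compContinuousLinearMap (A y)) y := by
  rw [contDiffAt_alt_iff]
  intro v
  let b := Module.finBasis ℝ F
  have h1 : (fun y => (f y).compContinuousLinearMap (A y) v) = fun y =>
      ∑ r : Fin k → Fin (Module.finrank ℝ F),
        (∏ i, (LinearMap.toContinuousLinearMap (b.coord (r i))) (A y (v i))) *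
          f y (fun i => b (r i)) := by
    funext y
    have h2 : (f y).compContinuousLinearMap (A y) v =
        (f y).toAlternatingMap.toMultilinearMap (fun i => ∑ j, (b.repr (A y (v i)) j) • b j) := by
      show (f y) (fun i => A y (v i)) = (f y) _
      congr 1
      funext i
      exact (b.sum_repr _).symm
    rw [h2, MultilinearMap.map_sum]
    refine Finset.sum_congr rfl fun r _ => ?_
    rw [MultilinearMap.map_smul_univ]
    rfl
  rw [h1]
  refine ContDiffAt.sum fun r _ => ContDiffAt.mul (contDiffAt_prod fun i _ => ?_)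
    ((contDiffAt_alt_iff.1 hf) _)
  exact (LinearMap.toContinuousLinearMap (b.coord (r i))).contDiff.contDiffAt.comp y
    (hA.clm_apply contDiffAt_const)

/-- Smoothness of the pullback of a form. -/
theorem contDiffAt_pullback [FiniteDimensional ℝ E] [FiniteDimensional ℝ F] {k : ℕ}
    {α : F → F [⋀^Fin k]→L[ℝ] ℝ} {c : E → F} {y : E}
    (hc : ContDiffAt ℝ ∞ c y) (hα : ContDiffAt ℝ ∞ α (c y)) :
    ContDiffAt ℝ ∞ (fun y => (α (c y)).compContinuousLinearMap (fderiv ℝ c y)) y :=
  contDiffAt_comp_alt (hα.comp y hc) (hc.fderiv_right (m := ∞) (by simp))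

theorem minS : minSmoothness ℝ 2 ≤ (∞ : WithTop ℕ∞) := by
  rw [minSmoothness_of_isRCLikeNormedField]
  exact ENat.LEInfty.out

/-- Smoothness of the exterior derivative. -/
theorem contDiffAt_extDeriv [FiniteDimensional ℝ E] {k : ℕ} {a : E → E [⋀^Fin k]→L[ℝ] ℝ} {x : E}
    (ha : ContDiffAt ℝ ∞ a x) : ContDiffAt ℝ ∞ (extDeriv a) x := by
  have h1 : ContDiffAt ℝ ∞ (fderiv ℝ a) x := ha.fderiv_right (m := ∞) (by simp)
  exact (ContinuousAlternatingMap.alternatizeUncurryFinCLM ℝ E ℝ (n := k)).contDiff.contDiffAt.comp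
    x h1

end Vale.Agent.P267.H175
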