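import Vale.Agent.P267.H775.Main

/-!
The algebraic core of the lattice input: a negative definite unimodular lattice in a real vector
space, with a canonical class, such that the Riemann-Roch number of every element is at most zero,
has a canonical orthogonal basis.
-/

namespace Vale.Agent.P267.H175

open Module

/-- **Lattice core.** `H` is a finite-dimensional real vector space with a negative definite
symmetric form `I`, `Λ` the lattice generated by an `ℝ`-basis `b0`, every additive map `Λ → ℤ` is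
the pairing with an element of `Λ`, `K ∈ Λ` satisfies `x.x - K.x ∈ {0, -2, -4, ...}` for all
`x ∈ Λ` and `K.K = - rank`.  Then `Λ` has an orthonormal basis `b` (with sign), with
`K.b i = -1`. -/
theorem core {H : Type*} [AddCommGroup H] [Module ℝ H] (I : H →ₗ[ℝ] H →ₗ[ℝ] ℝ)
    (hs : ∀ x y, I x y = I y x) (hneg : ∀ x, x ≠ 0 → I x x < 0) (Λ : AddSubgroup H) {r : ℕ}
    (b0 : Basis (Fin r) ℝ H) (hb0 : ∀ i, b0 i ∈ Λ)
    (hΛ : ∀ h ∈ Λ, ∃ n : Fin r → ℤ, h = ∑ i, n i • b0 i)
    (hU : ∀ φ : Λ →+ ℤ, ∃ z ∈ Λ, ∀ x : Λ, (φ x : ℝ) = I x z)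
    (K : H) (hK : K ∈ Λ)
    (hchi : ∀ x ∈ Λ, ∃ m : ℤ, m ≤ 0 ∧ I x x - I K x = 2 * m) (hKK : I K K = -r) :
    ∃ b : Basis (Fin r) ℝ H, (∀ i, b i ∈ Λ) ∧ (∀ h ∈ Λ, ∃! n : Fin r → ℤ, h = ∑ i, n i • b i) ∧
      (∀ i j, I (b i) (b j) = if i = j then -1 else 0) ∧ (∀ i, I K (b i) = -1) ∧
      K = ∑ i, b i := by
  classical
  -- integrality
  have hint : ∀ x y : Λ, ∃ n : ℤ, I x y = n := by
    intro x y
    obtain ⟨m1, -, h1⟩ := hchi (x + y : Λ) (x + y).2
    obtain ⟨m2, -, h2⟩ := hchi x x.2
    obtain ⟨m3, -, h3⟩ := hchi y y.2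
    refine ⟨m1 - m2 - m3, ?_⟩
    simp only [AddSubgroup.coe_add, map_add, LinearMap.add_apply] at h1
    rw [hs y x] at h1
    push_cast
    linarith
  choose β hβ using hint
  have hinj : ∀ {a b : ℤ}, (a : ℝ) = b → a = b := fun h => by exact_mod_cast h
  let B : LinearMap.BilinForm ℤ Λ := LinearMap.mk₂ ℤ β
    (fun x y z => hinj (by push_cast; simp only [← hβ]; simp))
    (fun c x y => hinj (by
      rw [smul_eq_mul]; push_cast; simp only [← hβ]
      rw [AddSubgroup.coe_zsmul, ← Int.cast_smul_eq_zsmul ℝ, map_smul]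
      simp))
    (fun x y z => hinj (by push_cast; simp only [← hβ]; simp))
    (fun c x y => hinj (by
      rw [smul_eq_mul]; push_cast; simp only [← hβ]
      rw [AddSubgroup.coe_zsmul, ← Int.cast_smul_eq_zsmul ℝ, map_smul]
      simp))
  have hB : ∀ x y : Λ, ((B x y : ℤ) : ℝ) = I x y := fun x y => (hβ x y).symm
  -- an integral basis
  have hliR : LinearIndependent ℝ (fun i => b0 i) := b0.linearIndependent
  have hliZ : LinearIndependent ℤ (fun i => (⟨b0 i, hb0 i⟩ : Λ)) := by
    rw [Fintype.linearIndependent_iff] at hliR ⊢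
    intro g hg i
    have h1 : ∑ i, (g i : ℝ) • b0 i = 0 := by
      have h2 := congrArg (fun w : Λ => (w : H)) hg
      simp only [AddSubgroup.val_finsetSum, AddSubgroup.coe_zsmul, AddSubgroup.coe_zero] at h2
      rw [← h2]
      exact Finset.sum_congr rfl fun i _ => Int.cast_smul_eq_zsmul ℝ _ _
    exact_mod_cast hliR (fun i => (g i : ℝ)) h1 i
  have hspZ : ⊤ ≤ Submodule.span ℤ (Set.range fun i => (⟨b0 i, hb0 i⟩ : Λ)) := by
    rintro ⟨h, hh⟩ -
    obtain ⟨n, hn⟩ := hΛ h hh
    have : (⟨h, hh⟩ : Λ) = ∑ i, n i • (⟨b0 i, hb0 i⟩ : Λ) := by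
      apply Subtype.ext
      rw [AddSubgroup.val_finsetSum]
      exact hn
    rw [this]
    exact Submodule.sum_mem _ fun i _ => Submodule.smul_mem _ _ (Submodule.subset_span ⟨i, rfl⟩)
  let BZ : Basis (Fin r) ℤ Λ := Basis.mk hliZ hspZ
  have hfree : Module.Free ℤ Λ := Module.Free.of_basis BZ
  have hfin : Module.Finite ℤ Λ := Module.Finite.of_basis BZ
  have hrank : Module.finrank ℤ Λ = r := by
    rw [Module.finrank_eq_card_basis BZ, Fintype.card_fin]
  have hBs : ∀ x y, B x y = B y x := fun x y => hinj (by rw [hB, hB, hs])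
  have hBn : ∀ x, x ≠ 0 → B x x < 0 := by
    intro x hx
    have h1 : I x x < 0 := hneg x fun h => hx (Subtype.ext h)
    rw [← hB] at h1
    exact_mod_cast h1
  have hrep : ∀ φ : Λ →+ ℤ, ∃ z : Λ, ∀ x : Λ, φ x = B x z := by
    intro φ
    obtain ⟨z, hz, h⟩ := hU φ
    exact ⟨⟨z, hz⟩, fun x => hinj (by rw [hB, h x])⟩
  have hu : Function.Bijective (B : Λ → Module.Dual ℤ Λ) := by
    constructor
    · intro x y hxy
      by_contra hne
      have h1 := hBn (x - y) (sub_ne_zero.2 hne)
      have h2 : B (x - y) = 0 := by rw [map_sub, hxy, sub_self]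
      rw [h2] at h1
      simp at h1
    · intro φ
      obtain ⟨z, hz⟩ := hrep φ.toAddMonoidHom
      refine ⟨z, ?_⟩
      ext x
      rw [hBs]
      exact (hz x).symm
  let K' : Λ := ⟨K, hK⟩
  have hchi' : ∀ x : Λ, ∃ m : ℤ, m ≤ 0 ∧ B x x - B K' x = 2 * m := by
    intro x
    obtain ⟨m, hm, h⟩ := hchi x x.2
    refine ⟨m, hm, hinj ?_⟩
    push_cast
    rw [hB, hB]
    exact h
  have hKc : ∀ x, (2 : ℤ) ∣ B x K' - B x x := by
    intro x
    obtain ⟨m, -, h⟩ := hchi' x
    exact ⟨-m, by rw [hBs x K']; linarith⟩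
  have hKK' : B K' K' = -(Module.finrank ℤ Λ : ℤ) := by
    rw [hrank]
    apply hinj
    rw [hB]
    push_cast
    exact hKK
  have hlong : ∀ w : Λ, (∀ x, (2 : ℤ) ∣ B x w - B x x) → B w w ≤ -(Module.finrank ℤ Λ : ℤ) := by
    intro w hw
    have hd : ∀ x, (2 : ℤ) ∣ B x w - B x K' := fun x => by
      have := dvd_sub (hw x) (hKc x)
      rwa [sub_sub_sub_cancel_right] at this
    choose g hg using hd
    obtain ⟨u, hu'⟩ := hrep
      { toFun := g
        map_zero' := by
          have h1 := hg 0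
          simp at h1
          exact h1
        map_add' := fun x y => by
          have h1 := hg (x + y)
          have h2 := hg x
          have h3 := hg y
          simp only [map_add, LinearMap.add_apply] at h1
          linarith }
    have hwu : w = K' + 2 • u := by
      apply hu.1
      ext x
      have h1 : g x = B x u := hu' x
      have h2 := hg x
      rw [h1] at h2
      rw [hBs w x, hBs (K' + 2 • u) x, map_add, map_nsmul, nsmul_eq_mul]
      push_cast
      linarith
    obtain ⟨m, hm, h3⟩ := hchi' (-u)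
    have h4 : B w w = B K' K' + 4 * (B (-u) (-u) - B K' (-u)) := by
      rw [hwu]
      simp only [map_add, map_nsmul, LinearMap.add_apply, LinearMap.smul_apply, map_neg,
        LinearMap.neg_apply, neg_neg, nsmul_eq_mul, hBs u K']
      push_cast
      ring
    rw [h4, hKK', h3]
    linarith
  have hE := H775.elkies_canonical B hBs hu hBn hlong K' hKc hKK'
  rw [hrank] at hE
  obtain ⟨b, hb1, hb2, hb3⟩ := hE
  have hI1 : ∀ i j, I (b i) (b j) = if i = j then -1 else 0 := by
    intro i j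
    rw [← hB, hb1]
    split_ifs <;> simp
  have hli : LinearIndependent ℝ (fun i => (b i : H)) := by
    rw [Fintype.linearIndependent_iff]
    intro g hg j
    have h1 := congrArg (fun v => I v (b j : H)) hg
    simp only [map_sum, LinearMap.sum_apply, map_smul, LinearMap.smul_apply, hI1, smul_eq_mul,
      map_zero, LinearMap.zero_apply] at h1
    rw [Finset.sum_eq_single j (fun i _ hi => by rw [if_neg hi, mul_zero])
      (fun h => absurd (Finset.mem_univ j) h), if_pos rfl] at h1
    linarith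
  have hspan : ⊤ ≤ Submodule.span ℝ (Set.range fun i => (b i : H)) := by
    rw [← b0.span_eq, Submodule.span_le]
    rintro _ ⟨i, rfl⟩
    have h1 : (⟨b0 i, hb0 i⟩ : Λ) = ∑ j, b.repr ⟨b0 i, hb0 i⟩ j • b j := (b.sum_repr _).symm
    have h2 : b0 i = ∑ j, b.repr ⟨b0 i, hb0 i⟩ j • (b j : H) := by
      have h3 := congrArg (fun w : Λ => (w : H)) h1
      simp only [AddSubgroup.val_finsetSum, AddSubgroup.coe_zsmul] at h3
      exact h3
    rw [SetLike.mem_coe, h2]
    refine Submodule.sum_mem _ fun j _ => ?_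
    rw [← Int.cast_smul_eq_zsmul ℝ]
    exact Submodule.smul_mem _ _ (Submodule.subset_span ⟨j, rfl⟩)
  refine ⟨Basis.mk hli hspan, fun i => ?_, fun h hh => ?_, fun i j => ?_, fun i => ?_, ?_⟩
  · rw [Basis.mk_apply]
    exact (b i).2
  · refine ⟨fun i => b.repr ⟨h, hh⟩ i, ?_, ?_⟩
    · have h1 : (⟨h, hh⟩ : Λ) = ∑ j, b.repr ⟨h, hh⟩ j • b j := (b.sum_repr _).symm
      have h3 := congrArg (fun w : Λ => (w : H)) h1
      simp only [AddSubgroup.val_finsetSum, AddSubgroup.coe_zsmul] at h3
      simp only [Basis.mk_apply]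
      exact h3
    · intro n hn
      simp only [Basis.mk_apply] at hn
      have h5 : (⟨h, hh⟩ : Λ) = ∑ i, n i • b i := by
        apply Subtype.ext
        rw [AddSubgroup.val_finsetSum]
        exact hn
      funext i
      rw [h5, b.repr_sum_self]
  · simp only [Basis.mk_apply]
    exact hI1 i j
  · rw [Basis.mk_apply]
    have h1 := hb2 i
    have h2 : ((B K' (b i) : ℤ) : ℝ) = -1 := by rw [h1]; simp
    rw [hB] at h2
    exact h2
  · simp only [Basis.mk_apply]
    have h3 := congrArg (fun w : Λ => (w : H)) hb3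
    simp only [AddSubgroup.val_finsetSum] at h3
    exact h3

end Vale.Agent.P267.H175
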