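import Vale.Agent.P267.H175.Lattice

/-!
Homomorphisms from the lattice of integral classes to the integers are evaluations at integral
cycles; Poincare duality for integral cycles gives a unimodular intersection form.
-/

namespace Vale.Agent.P267.H175

open Module

variable {s1 s2 s3 : Type*}

/-- An integral chain `c` on `s` is a cycle for `M` if it vanishes on integral coboundaries. -/
def IsCycle [Fintype s2] (M : IMap s1 s2) (c : s2 → ℤ) : Prop :=
  ∀ u : s1 → ℤ, ∑ j, c j * M.app u j = 0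

/-- Integral cycles vanish on real coboundaries. -/
theorem IsCycle.real [Finite s1] [Fintype s2] {M : IMap s1 s2} {c : s2 → ℤ} (hc : IsCycle M c)
    (u : s1 → ℝ) : ∑ j, (c j : ℝ) * M.app u j = 0 := by
  classical
  have := Fintype.ofFinite s1
  let F : (s1 → ℝ) →ₗ[ℝ] ℝ := (Fintype.linearCombination ℝ (fun j => (c j : ℝ))).comp (M.lin ℝ)
  have hF : ∀ u, F u = ∑ j, (c j : ℝ) * M.app u j := by
    intro u
    simp only [F, LinearMap.comp_apply, Fintype.linearCombination_apply, smul_eq_mul,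
      IMap.lin_apply]
    exact Finset.sum_congr rfl fun j _ => mul_comm _ _
  rw [← hF]
  have hF0 : F = 0 := by
    refine (Pi.basisFun ℝ s1).ext fun i => ?_
    rw [hF, LinearMap.zero_apply]
    have h1 : (Pi.basisFun ℝ s1) i = fun k => (((Pi.single i 1 : s1 → ℤ) k : ℤ) : ℝ) := by
      ext k
      by_cases h : k = i
      · subst h; simp
      · simp [h]
    rw [h1, M.app_intCast]
    have h2 := hc (Pi.single i 1)
    have h3 : ((∑ j, c j * M.app (Pi.single i 1) j : ℤ) : ℝ) = 0 := by rw [h2]; simp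
    push_cast at h3
    exact h3
  rw [hF0]
  rfl

/-- A homomorphism on the kernel of a map of free abelian groups of finite rank extends. -/
theorem exists_extend_int [Finite s2] (M : IMap s2 s3) (g : intKer M →+ ℤ) :
    ∃ G : (s2 → ℤ) →+ ℤ, ∀ z : intKer M, G z.1 = g z := by
  classical
  have := Fintype.ofFinite s2
  let K : Submodule ℤ (s2 → ℤ) := AddSubgroup.toIntSubmodule (intKer M)
  have hK : ∀ z, z ∈ K ↔ M.app z = 0 := fun z => Iff.rfl
  have htf : Module.IsTorsionFree ℤ ((s2 → ℤ) ⧸ K) := by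
    refine Module.IsTorsionFree.of_smul_eq_zero fun n q hn => ?_
    obtain ⟨z, rfl⟩ := K.mkQ_surjective q
    by_cases hn0 : n = 0
    · exact Or.inl hn0
    refine Or.inr ?_
    rw [← map_smul, Submodule.mkQ_apply, Submodule.Quotient.mk_eq_zero, hK, map_zsmul] at hn
    rw [Submodule.mkQ_apply, Submodule.Quotient.mk_eq_zero, hK]
    ext x
    have := congrFun hn x
    simpa [hn0] using this
  have hfree : Module.Free ℤ ((s2 → ℤ) ⧸ K) := inferInstance
  obtain ⟨σ, hσ⟩ := Module.projective_lifting_property K.mkQ (LinearMap.id) K.mkQ_surjective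
  have hmem : ∀ z, z - σ (K.mkQ z) ∈ K := by
    intro z
    rw [← Submodule.Quotient.mk_eq_zero (p := K), Submodule.Quotient.mk_sub]
    have h1 := LinearMap.congr_fun hσ (K.mkQ z)
    simp only [LinearMap.comp_apply, LinearMap.id_apply] at h1
    rw [← Submodule.mkQ_apply, ← Submodule.mkQ_apply, h1, sub_self]
  refine ⟨{ toFun := fun z => g ⟨z - σ (K.mkQ z), hmem z⟩, map_zero' := ?_, map_add' := ?_ }, ?_⟩
  · have : (⟨(0 : s2 → ℤ) - σ (K.mkQ 0), hmem 0⟩ : intKer M) = 0 := by
      apply Subtype.ext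
      simp
    rw [this, map_zero]
  · intro x y
    rw [← map_add]
    congr 1
    apply Subtype.ext
    simp only [map_add, AddSubgroup.coe_add]
    abel
  · intro z
    show g _ = g z
    congr 1
    apply Subtype.ext
    show z.1 - σ (K.mkQ z.1) = z.1
    have : K.mkQ z.1 = 0 := by
      rw [Submodule.mkQ_apply, Submodule.Quotient.mk_eq_zero, hK]
      exact z.2
    rw [this, map_zero, sub_zero]

variable {H : Type*} [AddCommGroup H] [Module ℝ H]

/-- Every homomorphism from the lattice of integral classes to the integers is the evaluation at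
an integral cycle. -/
theorem exists_cycle [Fintype s2] {M1 : IMap s1 s2} {M2 : IMap s2 s3}
    (hM : ∀ u : s1 → ℤ, M2.app (M1.app u) = 0)
    (p : LinearMap.ker (M2.lin ℝ) →ₗ[ℝ] H)
    (hker : ∀ x : LinearMap.ker (M2.lin ℝ), p x = 0 ↔ ∃ u : s1 → ℝ, M1.app u = x.1)
    (φ : Lam p →+ ℤ) :
    ∃ c : s2 → ℤ, IsCycle M1 c ∧
      ∀ z : intKer M2, φ ⟨intCl p z, intCl_mem_Lam p z⟩ = ∑ j, c j * z.1 j := by
  classical
  obtain ⟨G, hG⟩ := exists_extend_int M2 (φ.comp (intCl p).rangeRestrict)
  have hGs : ∀ z, G z = ∑ j, G (Pi.single j 1) * z j := by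
    intro z
    conv_lhs => rw [← Finset.univ_sum_single z]
    rw [map_sum]
    refine Finset.sum_congr rfl fun j _ => ?_
    have h1 : (Pi.single j (z j) : s2 → ℤ) = z j • Pi.single j 1 := by
      rw [← Pi.single_smul]
      simp
    rw [h1, map_zsmul, smul_eq_mul, mul_comm]
  refine ⟨fun j => G (Pi.single j 1), ?_, ?_⟩
  · intro u
    rw [← hGs]
    have h1 : M1.app u ∈ intKer M2 := hM u
    have h2 := hG ⟨M1.app u, h1⟩
    rw [h2]
    show φ ((intCl p).rangeRestrict ⟨M1.app u, h1⟩) = 0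
    have h3 : (intCl p).rangeRestrict ⟨M1.app u, h1⟩ = 0 := by
      apply Subtype.ext
      show intCl p ⟨M1.app u, h1⟩ = 0
      rw [intCl_apply, hker]
      exact ⟨fun i => (u i : ℝ), by rw [M1.app_intCast]; rfl⟩
    rw [h3]
    exact map_zero φ
  · intro z
    rw [← hGs]
    exact (hG z).symm

/-- Poincare duality for integral cycles and integrality of the intersection form give a
unimodular lattice. -/
theorem exists_unimodular [Fintype s2] {M1 : IMap s1 s2} {M2 : IMap s2 s3}
    (hM : ∀ u : s1 → ℤ, M2.app (M1.app u) = 0)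
    (p : LinearMap.ker (M2.lin ℝ) →ₗ[ℝ] H) (hp : Function.Surjective p)
    (hker : ∀ x : LinearMap.ker (M2.lin ℝ), p x = 0 ↔ ∃ u : s1 → ℝ, M1.app u = x.1)
    (I : H →ₗ[ℝ] H →ₗ[ℝ] ℝ)
    (hint : ∀ x ∈ Lam p, ∀ y ∈ Lam p, ∃ n : ℤ, I x y = n)
    (hPD : ∀ c : s2 → ℤ, IsCycle M1 c → ∃ x ∈ Lam p, ∀ y : LinearMap.ker (M2.lin ℝ),
      I x (p y) = ∑ j, (c j : ℝ) * y.1 j) :
    ∃ (r : ℕ) (b : Basis (Fin r) ℝ H) (G : Matrix (Fin r) (Fin r) ℤ),
      (∀ i, b i ∈ Lam p) ∧ (∀ h ∈ Lam p, ∃! n : Fin r → ℤ, h = ∑ i, n i • b i) ∧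
      (∀ i j, I (b i) (b j) = G i j) ∧ IsUnit G.det := by
  classical
  obtain ⟨r, b, z, hbz, hb⟩ := exists_basis (M1 := M1) p hp hker
  have hbL : ∀ i, b i ∈ Lam p := fun i => hbz i ▸ intCl_mem_Lam p (z i)
  choose G hG using fun i j => hint (b i) (hbL i) (b j) (hbL j)
  -- coordinates on the lattice
  have hcoord : ∀ j, ∃ φ : Lam p →+ ℤ, ∀ k, φ ⟨b k, hbL k⟩ = if k = j then 1 else 0 := by
    intro j
    choose n hn hn' using fun x : Lam p => hb x.1 x.2
    refine ⟨{ toFun := fun x => n x j, map_zero' := ?_, map_add' := ?_ }, ?_⟩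
    · have := hn' 0 0 (by simp)
      rw [← this]; rfl
    · intro x y
      have h1 := hn' (x + y) (n x + n y) (by
        show x.1 + y.1 = _
        conv_lhs => rw [hn x, hn y]
        rw [← Finset.sum_add_distrib]
        exact Finset.sum_congr rfl fun i _ => (add_smul _ _ _).symm)
      rw [← h1]; rfl
    · intro k
      have h1 := hn' ⟨b k, hbL k⟩ (Pi.single k 1) (by
        show b k = _
        rw [Finset.sum_eq_single k]
        · simp
        · intro i _ hi
          simp [hi]
        · intro h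
          exact absurd (Finset.mem_univ k) h)
      show n ⟨b k, hbL k⟩ j = _
      rw [← h1]
      by_cases h : k = j
      · subst h; simp
      · rw [if_neg h, Pi.single_apply, if_neg (fun h' => h h'.symm)]
  have hdual : ∀ j, ∃ m : Fin r → ℤ, ∀ k, ∑ i, (m i : ℝ) * (G i k : ℝ) = if k = j then 1 else 0 := by
    intro j
    obtain ⟨φ, hφ⟩ := hcoord j
    obtain ⟨c, hc, hcφ⟩ := exists_cycle hM p hker φ
    obtain ⟨x, hx, hxy⟩ := hPD c hc
    obtain ⟨m, hm, -⟩ := hb x hx
    refine ⟨m, fun k => ?_⟩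
    have h1 : I x (b k) = ∑ i, (m i : ℝ) * (G i k : ℝ) := by
      rw [hm, map_sum, LinearMap.sum_apply]
      refine Finset.sum_congr rfl fun i _ => ?_
      rw [map_zsmul, LinearMap.smul_apply, hG, zsmul_eq_mul]
    rw [← h1, hbz k, intCl_apply, hxy]
    have h2 := hcφ (z k)
    have h3 : φ ⟨intCl p (z k), intCl_mem_Lam p (z k)⟩ = if k = j then 1 else 0 := by
      rw [← hφ k]
      congr 1
      exact Subtype.ext (hbz k).symm
    rw [h3] at h2
    simp only [intToReal_coe]
    have h4 : (((if k = j then 1 else 0 : ℤ)) : ℝ) = ((∑ i, c i * (z k).1 i : ℤ) : ℝ) := by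
      rw [h2]
    push_cast at h4
    rw [← h4]
  choose m hm using hdual
  refine ⟨r, b, G, hbL, hb, hG, ?_⟩
  have hprod : (Matrix.of m) * (Matrix.of G) = 1 := by
    ext j k
    rw [Matrix.mul_apply, Matrix.one_apply]
    have := hm j k
    have h5 : ((∑ i, m j i * G i k : ℤ) : ℝ) = (((if k = j then 1 else 0 : ℤ)) : ℝ) := by
      push_cast
      rw [this]
    have h6 : (∑ i, m j i * G i k : ℤ) = if k = j then 1 else 0 := by exact_mod_cast h5
    simp only [Matrix.of_apply]
    rw [h6]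
    simp only [eq_comm]
  have hdet := congrArg Matrix.det hprod
  rw [Matrix.det_mul, Matrix.det_one] at hdet
  exact IsUnit.of_mul_eq_one_right _ hdet

end Vale.Agent.P267.H175
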