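import Mathlib

/-!
Integral cochain maps with finitely many face maps, their kernels over the integers and over the
real numbers, and the lattice of integral classes in real cohomology.
-/

namespace Vale.Agent.P267.H175

open Module

/-- A map of cochains given by finitely many signed face maps: it sends a cochain `u` on `s` to the
cochain `x ↦ ∑ r, sgn r • u (f r x)` on `t`, for coefficients in any abelian group. -/
structure IMap (s t : Type*) where
  /-- the number of faces -/
  n : ℕ
  /-- the signs -/
  sgn : Fin n → ℤ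
  /-- the faces -/
  f : Fin n → t → s

namespace IMap

variable {s t : Type*} (M : IMap s t)

/-- The action on cochains with values in `A`. -/
def app {A : Type*} [AddCommGroup A] : (s → A) →+ (t → A) where
  toFun u x := ∑ r, M.sgn r • u (M.f r x)
  map_zero' := by ext x; simp
  map_add' u v := by ext x; simp [Finset.sum_add_distrib]

theorem app_apply {A : Type*} [AddCommGroup A] (u : s → A) (x : t) :
    M.app u x = ∑ r, M.sgn r • u (M.f r x) := rfl

/-- The action on real cochains, as a linear map. -/
def lin (K : Type*) [Ring K] : (s → K) →ₗ[K] (t → K) where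
  toFun := M.app
  map_add' := map_add M.app
  map_smul' c u := by
    ext x
    simp only [app_apply, Pi.smul_apply, RingHom.id_apply, smul_eq_mul, Finset.mul_sum]
    refine Finset.sum_congr rfl fun r _ => ?_
    rw [mul_smul_comm]

@[simp] theorem lin_apply (K : Type*) [Ring K] (u : s → K) : M.lin K u = M.app u := rfl

/-- Naturality in the coefficients. -/
theorem app_comp {A B : Type*} [AddCommGroup A] [AddCommGroup B] (g : A →+ B) (u : s → A) :
    M.app (fun i => g (u i)) = fun x => g (M.app u x) := by
  ext x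
  simp [app_apply, map_sum, map_zsmul]

theorem app_intCast (u : s → ℤ) :
    M.app (fun i => (u i : ℝ)) = fun x => ((M.app u x : ℤ) : ℝ) :=
  M.app_comp (Int.castAddHom ℝ) u

theorem app_ratCast (u : s → ℚ) :
    M.app (fun i => (u i : ℝ)) = fun x => ((M.app u x : ℚ) : ℝ) :=
  M.app_comp (Rat.castHom ℝ).toAddMonoidHom u

theorem app_intCast_rat (u : s → ℤ) :
    M.app (fun i => (u i : ℚ)) = fun x => ((M.app u x : ℤ) : ℚ) :=
  M.app_comp (Int.castAddHom ℚ) u

end IMap

/-- The coordinates of a real number in a rational basis of the reals. -/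
noncomputable def coordQ (l : Basis.ofVectorSpaceIndex ℚ ℝ) : ℝ →+ ℚ :=
  ((Finsupp.lapply l).comp (Basis.ofVectorSpace ℚ ℝ).repr.toLinearMap).toAddMonoidHom

theorem coordQ_smul (l : Basis.ofVectorSpaceIndex ℚ ℝ) (q : ℚ) (x : ℝ) :
    coordQ l ((q : ℝ) * x) = q * coordQ l x := by
  have : (q : ℝ) * x = q • x := by rw [Rat.smul_def]
  rw [this]
  simp [coordQ]

theorem eq_zero_of_coordQ {x : ℝ} (h : ∀ l, coordQ l x = 0) : x = 0 := by
  have : (Basis.ofVectorSpace ℚ ℝ).repr x = 0 := by
    ext l
    simpa [coordQ] using h l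
  simpa using this

/-- A common denominator of a finite family of rationals. -/
theorem exists_denom {s : Type*} [Finite s] (u : s → ℚ) :
    ∃ N : ℤ, N ≠ 0 ∧ ∃ v : s → ℤ, ∀ i, (v i : ℚ) = N * u i := by
  classical
  have := Fintype.ofFinite s
  refine ⟨∏ i, ((u i).den : ℤ), ?_, fun i => (∏ j ∈ Finset.univ.erase i, ((u j).den : ℤ)) *
    (u i).num, fun i => ?_⟩
  · exact Finset.prod_ne_zero_iff.2 fun i _ => by exact_mod_cast (u i).den_nz
  · rw [← Finset.prod_erase_mul (a := i) _ _ (Finset.mem_univ i)]
    push_cast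
    rw [mul_assoc, mul_comm ((u i).den : ℚ), Rat.mul_den_eq_num]

/-- Every real cochain killed by `M` is a real combination of integral cochains killed by `M`. -/
theorem mem_span_int {s t : Type*} [Finite s] (M : IMap s t) (x : s → ℝ) (hx : M.app x = 0) :
    x ∈ Submodule.span ℝ {y : s → ℝ | ∃ z : s → ℤ, M.app z = 0 ∧ y = fun i => (z i : ℝ)} := by
  classical
  have := Fintype.ofFinite s
  set B := Basis.ofVectorSpace ℚ ℝ
  -- the finite set of coordinates that occur
  let T : Finset (Basis.ofVectorSpaceIndex ℚ ℝ) := Finset.univ.biUnion fun i => (B.repr (x i)).support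
  have hsum : x = ∑ l ∈ T, (B l : ℝ) • (fun i => ((coordQ l (x i) : ℚ) : ℝ)) := by
    ext i
    have h1 : x i = ∑ l ∈ (B.repr (x i)).support, (B.repr (x i)) l • B l :=
      (B.linearCombination_repr (x i)).symm.trans (Finsupp.linearCombination_apply ℚ _)
    have h2 : ∑ l ∈ (B.repr (x i)).support, (B.repr (x i)) l • B l
        = ∑ l ∈ T, (B.repr (x i)) l • B l := by
      apply Finset.sum_subset
      · intro l hl
        exact Finset.mem_biUnion.2 ⟨i, Finset.mem_univ i, hl⟩
      · intro l _ hl
        rw [Finsupp.notMem_support_iff.1 hl, zero_smul]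
    rw [Finset.sum_apply, h1, h2]
    refine Finset.sum_congr rfl fun l _ => ?_
    simp only [Pi.smul_apply, smul_eq_mul, Rat.smul_def]
    rw [mul_comm]
    rfl
  rw [hsum]
  refine Submodule.sum_mem _ fun l _ => Submodule.smul_mem _ _ ?_
  obtain ⟨N, hN, v, hv⟩ := exists_denom (fun i => coordQ l (x i))
  have hMv : M.app v = 0 := by
    have h1 : M.app (fun i => coordQ l (x i)) = 0 := by
      rw [M.app_comp (coordQ l) x]
      ext j
      rw [hx]
      simp
    have h2 : M.app (fun i => ((v i : ℤ) : ℚ)) = 0 := by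
      have : (fun i => ((v i : ℤ) : ℚ)) = (N : ℚ) • fun i => coordQ l (x i) := by
        ext i
        simp [hv i]
      rw [this]
      have := (M.lin ℚ).map_smul (N : ℚ) (fun i => coordQ l (x i))
      simp only [IMap.lin_apply] at this
      rw [this, h1, smul_zero]
    rw [M.app_intCast_rat] at h2
    ext j
    have := congrFun h2 j
    simpa using this
  have hfin : (fun i => ((coordQ l (x i) : ℚ) : ℝ)) = ((N : ℝ)⁻¹) • (fun i => (v i : ℝ)) := by
    ext i
    have h3 : ((v i : ℤ) : ℝ) = (N : ℝ) * ((coordQ l (x i) : ℚ) : ℝ) := by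
      have := hv i
      have h4 : (((v i : ℤ) : ℚ) : ℝ) = (((N : ℚ) * coordQ l (x i) : ℚ) : ℝ) := by rw [this]
      simpa using h4
    have hN' : (N : ℝ) ≠ 0 := by exact_mod_cast hN
    simp only [Pi.smul_apply, smul_eq_mul]
    rw [h3, ← mul_assoc, inv_mul_cancel₀ hN', one_mul]
  rw [hfin]
  exact Submodule.smul_mem _ _ (Submodule.subset_span ⟨v, hMv, rfl⟩)

end Vale.Agent.P267.H175
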