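import Vale.Agent.P267.H175.IntCx

/-!
The lattice of integral classes in real cohomology: basis, homomorphisms to the integers,
unimodularity from Poincare duality for integral cycles.
-/

namespace Vale.Agent.P267.H175

open Module

variable {s1 s2 s3 : Type*}

/-- The integral cochains killed by `M`. -/
def intKer (M : IMap s2 s3) : AddSubgroup (s2 → ℤ) := M.app.ker

theorem mem_intKer {M : IMap s2 s3} {z : s2 → ℤ} : z ∈ intKer M ↔ M.app z = 0 := Iff.rfl

/-- An integral cocycle as a real cocycle. -/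
def intToReal (M : IMap s2 s3) : intKer M →+ LinearMap.ker (M.lin ℝ) where
  toFun z := ⟨fun i => (z.1 i : ℝ), by
    rw [LinearMap.mem_ker, IMap.lin_apply, M.app_intCast, mem_intKer.1 z.2]
    ext x; simp⟩
  map_zero' := by ext; simp
  map_add' x y := by ext; simp

@[simp] theorem intToReal_coe (M : IMap s2 s3) (z : intKer M) (i : s2) :
    (intToReal M z).1 i = (z.1 i : ℝ) := rfl

variable {H : Type*} [AddCommGroup H] [Module ℝ H]

/-- The class of an integral cocycle. -/
def intCl {M : IMap s2 s3} (p : LinearMap.ker (M.lin ℝ) →ₗ[ℝ] H) : intKer M →+ H :=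
  p.toAddMonoidHom.comp (intToReal M)

theorem intCl_apply {M : IMap s2 s3} (p : LinearMap.ker (M.lin ℝ) →ₗ[ℝ] H) (z : intKer M) :
    intCl p z = p (intToReal M z) := rfl

/-- The subgroup of integral classes. -/
def Lam {M : IMap s2 s3} (p : LinearMap.ker (M.lin ℝ) →ₗ[ℝ] H) : AddSubgroup H :=
  (intCl p).range

theorem intCl_mem_Lam {M : IMap s2 s3} (p : LinearMap.ker (M.lin ℝ) →ₗ[ℝ] H) (z : intKer M) :
    intCl p z ∈ Lam p := ⟨z, rfl⟩

theorem mem_Lam {M : IMap s2 s3} {p : LinearMap.ker (M.lin ℝ) →ₗ[ℝ] H} {h : H} :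
    h ∈ Lam p ↔ ∃ z : intKer M, intCl p z = h := Iff.rfl

/-- The integral classes span. -/
theorem span_Lam [Finite s2] {M : IMap s2 s3} (p : LinearMap.ker (M.lin ℝ) →ₗ[ℝ] H)
    (hp : Function.Surjective p) : Submodule.span ℝ (Lam p : Set H) = ⊤ := by
  rw [eq_top_iff]
  rintro h -
  obtain ⟨x, rfl⟩ := hp h
  have h1 : x.1 ∈ Submodule.span ℝ
      {y : s2 → ℝ | ∃ z : s2 → ℤ, M.app z = 0 ∧ y = fun i => (z i : ℝ)} :=
    mem_span_int M x.1 x.2
  have h2 : x ∈ Submodule.span ℝ (Set.range fun z => intToReal M z) := by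
    have h3 : Submodule.map (LinearMap.ker (M.lin ℝ)).subtype
        (Submodule.span ℝ (Set.range fun z => intToReal M z)) =
        Submodule.span ℝ {y : s2 → ℝ | ∃ z : s2 → ℤ, M.app z = 0 ∧ y = fun i => (z i : ℝ)} := by
      rw [Submodule.map_span]
      congr 1
      ext y
      constructor
      · rintro ⟨_, ⟨z, rfl⟩, rfl⟩
        exact ⟨z.1, z.2, rfl⟩
      · rintro ⟨z, hz, rfl⟩
        exact ⟨_, ⟨⟨z, hz⟩, rfl⟩, rfl⟩
    rw [← h3] at h1
    obtain ⟨y, hy, hxy⟩ := h1
    have : y = x := Subtype.ext hxy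
    rwa [← this]
  have h4 : p x ∈ Submodule.map p (Submodule.span ℝ (Set.range fun z => intToReal M z)) :=
    ⟨x, h2, rfl⟩
  rw [Submodule.map_span] at h4
  refine Submodule.span_mono ?_ h4
  rintro _ ⟨_, ⟨z, rfl⟩, rfl⟩
  exact ⟨z, rfl⟩

/-- An integral relation with real coefficients between integral classes splits into rational
relations. -/
theorem linearIndependent_real {M1 : IMap s1 s2} {M2 : IMap s2 s3}
    (p : LinearMap.ker (M2.lin ℝ) →ₗ[ℝ] H)
    (hker : ∀ x : LinearMap.ker (M2.lin ℝ), p x = 0 ↔ ∃ u : s1 → ℝ, M1.app u = x.1)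
    {k : Type*} [Finite k] (z : k → intKer M2)
    (hz : LinearIndependent ℤ (fun i => intCl p (z i))) :
    LinearIndependent ℝ (fun i => intCl p (z i)) := by
  classical
  have := Fintype.ofFinite k
  rw [Fintype.linearIndependent_iff] at hz ⊢
  intro t ht
  have h1 : p (∑ i, t i • intToReal M2 (z i)) = 0 := by
    rw [map_sum, ← ht]
    refine Finset.sum_congr rfl fun i _ => ?_
    rw [map_smul]
    rfl
  obtain ⟨u, hu⟩ := (hker _).1 h1
  have hu' : ∀ x, M1.app u x = ∑ i, t i * ((z i).1 x : ℝ) := by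
    intro x
    rw [hu]
    simp
  intro i
  refine eq_zero_of_coordQ fun l => ?_
  obtain ⟨N, hN, v, hv⟩ := exists_denom (fun i => coordQ l (t i))
  -- the integral relation
  have h2 : intCl p (∑ i, v i • z i) = 0 := by
    rw [intCl_apply, hker]
    refine ⟨fun y => (((N : ℚ) * coordQ l (u y) : ℚ) : ℝ), ?_⟩
    ext x
    rw [M1.app_ratCast (fun y => (N : ℚ) * coordQ l (u y))]
    have h3 : M1.app (fun y => (N : ℚ) * coordQ l (u y)) x = ∑ i, (v i : ℚ) * ((z i).1 x : ℚ) := by
      have h4 : M1.app (fun y => (N : ℚ) * coordQ l (u y)) x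
          = (N : ℚ) * M1.app (fun y => coordQ l (u y)) x :=
        congrFun ((M1.lin ℚ).map_smul (N : ℚ) (fun y => coordQ l (u y))) x
      rw [h4, M1.app_comp (coordQ l) u]
      show (N : ℚ) * coordQ l (M1.app u x) = _
      rw [hu', map_sum, Finset.mul_sum]
      refine Finset.sum_congr rfl fun i _ => ?_
      have h5 : t i * ((z i).1 x : ℝ) = (((z i).1 x : ℚ) : ℝ) * t i := by
        push_cast; ring
      rw [h5, coordQ_smul, hv i]
      ring
    show ((M1.app (fun y => (N : ℚ) * coordQ l (u y)) x : ℚ) : ℝ) = _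
    rw [h3]
    simp only [intToReal_coe]
    push_cast
    simp [Finset.sum_apply]
  have h6 : ∑ i, v i • intCl p (z i) = 0 := by
    rw [← h2, map_sum]
    refine Finset.sum_congr rfl fun i _ => ?_
    rw [map_zsmul]
  have h7 := hz v h6 i
  have h8 := hv i
  rw [h7] at h8
  have hN' : (N : ℚ) ≠ 0 := by exact_mod_cast hN
  rcases mul_eq_zero.1 h8.symm with h | h
  · exact absurd h hN'
  · exact h

/-- The integral classes form a full lattice: a basis over the integers is a basis over the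
reals. -/
theorem exists_basis [Finite s2] {M1 : IMap s1 s2} {M2 : IMap s2 s3}
    (p : LinearMap.ker (M2.lin ℝ) →ₗ[ℝ] H) (hp : Function.Surjective p)
    (hker : ∀ x : LinearMap.ker (M2.lin ℝ), p x = 0 ↔ ∃ u : s1 → ℝ, M1.app u = x.1) :
    ∃ (r : ℕ) (b : Basis (Fin r) ℝ H) (z : Fin r → intKer M2), (∀ i, b i = intCl p (z i)) ∧
      ∀ h ∈ Lam p, ∃! n : Fin r → ℤ, h = ∑ i, n i • b i := by
  classical
  obtain ⟨L, hL⟩ : ∃ L : Submodule ℤ H, ∀ h, h ∈ L ↔ h ∈ Lam p :=
    ⟨AddSubgroup.toIntSubmodule (Lam p), fun h => Iff.rfl⟩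
  have hfin : Module.Finite ℤ (intKer M2) :=
    Module.Finite.of_injective (AddSubgroup.subtype (intKer M2)).toIntLinearMap
      Subtype.val_injective
  have hLfin : Module.Finite ℤ L := by
    refine Module.Finite.of_surjective
      (LinearMap.codRestrict L (intCl p).toIntLinearMap fun z => (hL _).2 (intCl_mem_Lam p z)) ?_
    rintro ⟨h, hh⟩
    obtain ⟨z, hz⟩ := (hL _).1 hh
    exact ⟨z, Subtype.ext hz⟩
  have htf : Module.IsTorsionFree ℤ H := Module.IsTorsionFree.of_smul_eq_zero fun n h hn => by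
    rw [← Int.cast_smul_eq_zsmul ℝ, smul_eq_zero] at hn
    exact hn.imp_left fun h => by exact_mod_cast h
  have hfree : Module.Free ℤ L := inferInstance
  obtain ⟨r, B⟩ : Σ r : ℕ, Basis (Fin r) ℤ L := ⟨_, Module.finBasis ℤ L⟩
  have hz : ∀ i, ∃ z : intKer M2, intCl p z = (B i : H) := fun i => (hL _).1 (B i).2
  choose z hz using hz
  have hliZ : LinearIndependent ℤ (fun i => intCl p (z i)) := by
    have h1 := B.linearIndependent
    rw [Fintype.linearIndependent_iff] at h1 ⊢
    intro g hg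
    refine h1 g (Subtype.ext ?_)
    rw [Submodule.coe_sum, Submodule.coe_zero, ← hg]
    exact Finset.sum_congr rfl fun i _ => by rw [hz i]; rfl
  have hliR := linearIndependent_real (M1 := M1) p hker z hliZ
  have hexp : ∀ h (hh : h ∈ L), h = ∑ i, (B.repr ⟨h, hh⟩ i) • intCl p (z i) := by
    intro h hh
    have h4 : ((∑ i, B.repr ⟨h, hh⟩ i • B i : L) : H) = h :=
      congrArg (fun w : L => (w : H)) (B.sum_repr ⟨h, hh⟩)
    rw [Submodule.coe_sum] at h4
    exact h4.symm.trans (Finset.sum_congr rfl fun i _ => by rw [hz i]; rfl)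
  have hspan : ⊤ ≤ Submodule.span ℝ (Set.range fun i => intCl p (z i)) := by
    rw [← span_Lam p hp, Submodule.span_le]
    intro h hh
    have hh' := (hL h).2 hh
    rw [SetLike.mem_coe, hexp h hh']
    refine Submodule.sum_mem _ fun i _ => ?_
    rw [← Int.cast_smul_eq_zsmul ℝ]
    exact Submodule.smul_mem _ _ (Submodule.subset_span ⟨i, rfl⟩)
  refine ⟨r, Basis.mk hliR hspan, z, fun i => by simp, ?_⟩
  intro h hh
  have hh' := (hL h).2 hh
  refine ⟨fun i => B.repr ⟨h, hh'⟩ i, ?_, ?_⟩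
  · show h = ∑ i, (B.repr ⟨h, hh'⟩ i) • _
    simp only [Basis.mk_apply]
    exact hexp h hh'
  · intro n hn
    simp only [Basis.mk_apply] at hn
    have h5 : (⟨h, hh'⟩ : L) = ∑ i, n i • B i := by
      apply Subtype.ext
      rw [Submodule.coe_sum]
      exact hn.trans (Finset.sum_congr rfl fun i _ => by rw [hz i]; rfl)
    funext i
    rw [h5, B.repr_sum_self]

end Vale.Agent.P267.H175
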