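import Vale.Agent.P267.H175.Presheaf
import Vale.Agent.P267.H175.Cycle

/-!
The nerve of a cover in low degrees, and the isomorphism between the second cohomology of the
global forms and the second cohomology of the nerve.
-/

namespace Vale.Agent.P267.H175

open TopologicalSpace

universe u v w

variable {X : Type u} [TopologicalSpace X] {ι : Type v}

/-- Ordered pairs with nonempty intersection. -/
abbrev N1 (U : ι → Opens X) : Type v := {p : ι × ι // U p.1 ⊓ U p.2 ≠ ⊥}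

/-- Ordered triples with nonempty intersection. -/
abbrev N2 (U : ι → Opens X) : Type v := {p : ι × ι × ι // U p.1 ⊓ U p.2.1 ⊓ U p.2.2 ≠ ⊥}

/-- Ordered quadruples with nonempty intersection. -/
abbrev N3 (U : ι → Opens X) : Type v :=
  {p : ι × ι × ι × ι // U p.1 ⊓ U p.2.1 ⊓ U p.2.2.1 ⊓ U p.2.2.2 ≠ ⊥}

theorem ne_bot_mono {V W : Opens X} (h : V ≤ W) (hV : V ≠ ⊥) : W ≠ ⊥ :=
  fun hW => hV (le_bot_iff.1 (hW ▸ h))

variable (U : ι → Opens X)

/-- The Cech differential from one-cochains to two-cochains. -/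
def dlt1 : IMap (N1 U) (N2 U) where
  n := 3
  sgn := ![1, -1, 1]
  f := ![fun p => ⟨(p.1.2.1, p.1.2.2), ne_bot_mono
      (le_inf (inf_le_left.trans inf_le_right) inf_le_right) p.2⟩,
    fun p => ⟨(p.1.1, p.1.2.2), ne_bot_mono
      (le_inf (inf_le_left.trans inf_le_left) inf_le_right) p.2⟩,
    fun p => ⟨(p.1.1, p.1.2.1), ne_bot_mono inf_le_left p.2⟩]

/-- The Cech differential from two-cochains to three-cochains. -/
def dlt2 : IMap (N2 U) (N3 U) where
  n := 4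
  sgn := ![1, -1, 1, -1]
  f := ![fun p => ⟨(p.1.2.1, p.1.2.2.1, p.1.2.2.2), ne_bot_mono
      (le_inf (le_inf (inf_le_left.trans (inf_le_left.trans inf_le_right))
      (inf_le_left.trans inf_le_right)) inf_le_right) p.2⟩,
    fun p => ⟨(p.1.1, p.1.2.2.1, p.1.2.2.2), ne_bot_mono
      (le_inf (le_inf (inf_le_left.trans (inf_le_left.trans inf_le_left))
      (inf_le_left.trans inf_le_right)) inf_le_right) p.2⟩,
    fun p => ⟨(p.1.1, p.1.2.1, p.1.2.2.2), ne_bot_mono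
      (le_inf (le_inf (inf_le_left.trans (inf_le_left.trans inf_le_left))
      (inf_le_left.trans (inf_le_left.trans inf_le_right))) inf_le_right) p.2⟩,
    fun p => ⟨(p.1.1, p.1.2.1, p.1.2.2.1), ne_bot_mono inf_le_left p.2⟩]

variable {U}

theorem dlt1_app {A : Type*} [AddCommGroup A] (u : N1 U → A) (i j k : ι)
    (h : U i ⊓ U j ⊓ U k ≠ ⊥) :
    (dlt1 U).app u ⟨(i, j, k), h⟩
      = u ⟨(j, k), ne_bot_mono (le_inf (inf_le_left.trans inf_le_right) inf_le_right) h⟩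
        - u ⟨(i, k), ne_bot_mono (le_inf (inf_le_left.trans inf_le_left) inf_le_right) h⟩
        + u ⟨(i, j), ne_bot_mono inf_le_left h⟩ := by
  rw [IMap.app_apply]
  show ∑ r : Fin 3, _ = _
  simp only [dlt1, Fin.sum_univ_three]
  simp [sub_eq_add_neg]

theorem dlt2_app {A : Type*} [AddCommGroup A] (u : N2 U → A) (i j k l : ι)
    (h : U i ⊓ U j ⊓ U k ⊓ U l ≠ ⊥) :
    (dlt2 U).app u ⟨(i, j, k, l), h⟩
      = u ⟨(j, k, l), ne_bot_mono (le_inf (le_inf (inf_le_left.trans (inf_le_left.trans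
          inf_le_right)) (inf_le_left.trans inf_le_right)) inf_le_right) h⟩
        - u ⟨(i, k, l), ne_bot_mono (le_inf (le_inf (inf_le_left.trans (inf_le_left.trans
          inf_le_left)) (inf_le_left.trans inf_le_right)) inf_le_right) h⟩
        + u ⟨(i, j, l), ne_bot_mono (le_inf (le_inf (inf_le_left.trans (inf_le_left.trans
          inf_le_left)) (inf_le_left.trans (inf_le_left.trans inf_le_right))) inf_le_right) h⟩
        - u ⟨(i, j, k), ne_bot_mono inf_le_left h⟩ := by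
  rw [IMap.app_apply]
  show ∑ r : Fin 4, _ = _
  simp only [dlt2, Fin.sum_univ_four]
  simp [sub_eq_add_neg]

theorem dlt2_dlt1 {A : Type*} [AddCommGroup A] (u : N1 U → A) :
    (dlt2 U).app ((dlt1 U).app u) = 0 := by
  funext p
  obtain ⟨⟨i, j, k, l⟩, h⟩ := p
  rw [dlt2_app, dlt1_app, dlt1_app, dlt1_app, dlt1_app]
  simp only [Pi.zero_apply]
  abel

/-- Extension by zero of a cochain on nonempty triple intersections. -/
noncomputable def ext2 : (N2 U → ℝ) →ₗ[ℝ] (ι → ι → ι → ℝ) := by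
  classical
  exact
  { toFun := fun z i j k => if h : U i ⊓ U j ⊓ U k ≠ ⊥ then z ⟨(i, j, k), h⟩ else 0
    map_add' := fun z z' => by
      funext i j k
      by_cases h : U i ⊓ U j ⊓ U k ≠ ⊥
      · simp only [Pi.add_apply, dif_pos h]
      · simp only [Pi.add_apply, dif_neg h, add_zero]
    map_smul' := fun c z => by
      funext i j k
      by_cases h : U i ⊓ U j ⊓ U k ≠ ⊥
      · simp only [Pi.smul_apply, dif_pos h, RingHom.id_apply]
      · simp only [Pi.smul_apply, dif_neg h, smul_zero, RingHom.id_apply] }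

theorem ext2_of_ne (z : N2 U → ℝ) {i j k : ι} (h : U i ⊓ U j ⊓ U k ≠ ⊥) :
    ext2 z i j k = z ⟨(i, j, k), h⟩ := by
  classical
  exact dif_pos h

namespace FormPre

variable (F : FormPre.{u, v, w} X U)

/-- The cohomology of the global forms in degree `k + 1`. -/
abbrev Coh (k : ℕ) : Type w :=
  (LinearMap.ker (F.d (k := k + 1) (V := ⊤))) ⧸
    (LinearMap.range (F.d (k := k) (V := ⊤))).submoduleOf
      (LinearMap.ker (F.d (k := k + 1) (V := ⊤)))

/-- The class of a closed form. -/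
def cls {k : ℕ} (y : LinearMap.ker (F.d (k := k + 1) (V := ⊤))) : F.Coh k :=
  Submodule.Quotient.mk y

theorem cls_eq_zero {k : ℕ} (y : LinearMap.ker (F.d (k := k + 1) (V := ⊤))) :
    F.cls y = 0 ↔ ∃ η, F.d η = y.1 := by
  rw [cls, Submodule.Quotient.mk_eq_zero]
  exact Iff.rfl

/-- The cover is good: forms on the empty set vanish, constants are injective on nonempty sets,
and the Poincare lemma holds in the needed degrees. -/
structure Good : Prop where
  bot : ∀ k, Subsingleton (F.A k ⊥)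
  inj : ∀ {V : Opens X}, V ≠ ⊥ → Function.Injective (F.cst (V := V))
  p0_1 : ∀ i, F.P0 (U i)
  p0_2 : ∀ i j, F.P0 (U i ⊓ U j)
  p0_3 : ∀ i j k, F.P0 (U i ⊓ U j ⊓ U k)
  p1_1 : ∀ i, F.Pk 0 (U i)
  p1_2 : ∀ i j, F.Pk 0 (U i ⊓ U j)
  p2_1 : ∀ i, F.Pk 1 (U i)

variable {F}

theorem Good.cst_eq {V : Opens X} (hF : F.Good) {r s : ℝ} (h : V ≠ ⊥ → r = s) :
    F.cst (V := V) r = F.cst s := by
  by_cases hV : V = ⊥
  · subst hV
    exact (hF.bot 0).elim _ _
  · rw [h hV]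

theorem Good.coc2_ext2 (hF : F.Good) (z : N2 U → ℝ) (hz : (dlt2 U).app z = 0) :
    F.Coc2 (ext2 z) := by
  intro i j k l
  rw [← map_zero (F.cst)]
  refine hF.cst_eq fun h => ?_
  have h1 := congrFun hz ⟨(i, j, k, l), h⟩
  rw [dlt2_app] at h1
  rw [ext2_of_ne _ (ne_bot_mono (le_inf (le_inf (inf_le_left.trans (inf_le_left.trans
          inf_le_right)) (inf_le_left.trans inf_le_right)) inf_le_right) h),
    ext2_of_ne _ (ne_bot_mono (le_inf (le_inf (inf_le_left.trans (inf_le_left.trans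
          inf_le_left)) (inf_le_left.trans inf_le_right)) inf_le_right) h),
    ext2_of_ne _ (ne_bot_mono (le_inf (le_inf (inf_le_left.trans (inf_le_left.trans
          inf_le_left)) (inf_le_left.trans (inf_le_left.trans inf_le_right))) inf_le_right) h),
    ext2_of_ne _ (ne_bot_mono inf_le_left h)]
  exact h1

/-- Restriction of a cochain to nonempty intersections. -/
def rst2 (c : ι → ι → ι → ℝ) : N2 U → ℝ := fun p => c p.1.1 p.1.2.1 p.1.2.2

theorem Good.dlt2_rst2 (hF : F.Good) {c : ι → ι → ι → ℝ} (hc : F.Coc2 c) :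
    (dlt2 U).app (rst2 (U := U) c) = 0 := by
  funext p
  obtain ⟨⟨i, j, k, l⟩, h⟩ := p
  rw [dlt2_app]
  have h1 := hc i j k l
  rw [← map_zero (F.cst)] at h1
  exact hF.inj h h1

theorem Good.cst_ext2_rst2 (hF : F.Good) (c : ι → ι → ι → ℝ) (i j k : ι) :
    F.cst (V := U i ⊓ U j ⊓ U k) (ext2 (rst2 (U := U) c) i j k) = F.cst (c i j k) :=
  hF.cst_eq fun h => by rw [ext2_of_ne _ h]; rfl

/-- The class of the closed two-form of a real two-cocycle of the nerve. -/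
noncomputable def Good.cl2 (hF : F.Good) : LinearMap.ker ((dlt2 U).lin ℝ) →ₗ[ℝ] F.Coh 1 where
  toFun z := F.cls ⟨F.curv2 (ext2 z.1), (F.zig_curv2 (hF.coc2_ext2 z.1 z.2)).closed⟩
  map_add' z z' := by
    rw [cls, cls, cls, ← Submodule.Quotient.mk_add]
    congr 1
    apply Subtype.ext
    simp
  map_smul' c z := by
    rw [cls, cls, RingHom.id_apply, ← Submodule.Quotient.mk_smul]
    congr 1
    apply Subtype.ext
    simp

theorem Good.cl2_apply (hF : F.Good) (z : LinearMap.ker ((dlt2 U).lin ℝ)) :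
    hF.cl2 z = F.cls ⟨F.curv2 (ext2 z.1), (F.zig_curv2 (hF.coc2_ext2 z.1 z.2)).closed⟩ := rfl

/-- A zigzag identifies the class of a closed two-form. -/
theorem Good.cl2_of_zig (hF : F.Good) {y : F.A 2 ⊤} {c : ι → ι → ι → ℝ} (h : F.Zig y c) :
    hF.cl2 ⟨rst2 c, hF.dlt2_rst2 (Zig.coc2 F h)⟩ = F.cls ⟨y, Zig.closed F h⟩ := by
  rw [hF.cl2_apply, ← sub_eq_zero, cls, cls, ← Submodule.Quotient.mk_sub]
  show F.cls _ = 0
  rw [cls_eq_zero]
  have h1 := F.zig_curv2 (hF.coc2_ext2 (rst2 (U := U) c) (hF.dlt2_rst2 (Zig.coc2 F h)))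
  have h2 := Zig.sub F h1 h
  refine Zig.exact_of_zero F (Zig.congr F h2 fun i j k => ?_)
  rw [Pi.sub_apply, Pi.sub_apply, Pi.sub_apply, map_sub, hF.cst_ext2_rst2]
  simp

theorem Good.cl2_surjective (hF : F.Good) : Function.Surjective hF.cl2 := by
  intro x
  obtain ⟨y, rfl⟩ := Submodule.Quotient.mk_surjective _ x
  obtain ⟨c, hc⟩ := F.exists_zig hF.p2_1 hF.p1_2 hF.p0_3 y.1 y.2
  exact ⟨_, hF.cl2_of_zig hc⟩

theorem Good.cl2_eq_zero_iff (hF : F.Good) (z : LinearMap.ker ((dlt2 U).lin ℝ)) :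
    hF.cl2 z = 0 ↔ ∃ u : N1 U → ℝ, (dlt1 U).app u = z.1 := by
  classical
  have hz := F.zig_curv2 (hF.coc2_ext2 z.1 z.2)
  rw [hF.cl2_apply, cls_eq_zero]
  constructor
  · rintro ⟨ζ, hζ⟩
    obtain ⟨u, hu⟩ := Zig.coboundary_of_exact F hF.p1_1 hF.p0_2 hz ζ hζ
    refine ⟨fun p => u p.1.1 p.1.2, ?_⟩
    funext p
    obtain ⟨⟨i, j, k⟩, h⟩ := p
    rw [dlt1_app]
    have h1 := hF.inj h (hu i j k)
    rw [ext2_of_ne _ h] at h1
    exact h1.symm
  · rintro ⟨u, hu⟩
    let u' : ι → ι → ℝ := fun i j => if h : U i ⊓ U j ≠ ⊥ then u ⟨(i, j), h⟩ else 0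
    have hu' : ∀ i j (h : U i ⊓ U j ≠ ⊥), u' i j = u ⟨(i, j), h⟩ := fun i j h => dif_pos h
    have h1 := Zig.sub F hz (F.zig_zero_coboundary u')
    have h2 : F.Zig (F.curv2 (ext2 z.1) - 0) 0 := Zig.congr F h1 fun i j k => by
      refine hF.cst_eq fun h => ?_
      have h3 := congrFun hu ⟨(i, j, k), h⟩
      rw [dlt1_app] at h3
      simp only [Pi.sub_apply, Pi.zero_apply]
      rw [ext2_of_ne _ h, ← h3,
        hu' j k (ne_bot_mono (le_inf (inf_le_left.trans inf_le_right) inf_le_right) h),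
        hu' i k (ne_bot_mono (le_inf (inf_le_left.trans inf_le_left) inf_le_right) h),
        hu' i j (ne_bot_mono inf_le_left h)]
      ring
    rw [sub_zero] at h2
    exact Zig.exact_of_zero F h2

/-- The lattice of integral classes in the second cohomology. -/
noncomputable def Good.lat2 (hF : F.Good) : AddSubgroup (F.Coh 1) := Lam hF.cl2

/-- The class of an integral cocycle. -/
theorem Good.mem_lat2 (hF : F.Good) {x : F.Coh 1} :
    x ∈ hF.lat2 ↔ ∃ z : N2 U → ℤ, ∃ hz : (dlt2 U).app z = 0, x = hF.cl2 (intToReal _ ⟨z, hz⟩) := by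
  constructor
  · rintro ⟨z, rfl⟩
    exact ⟨z.1, z.2, rfl⟩
  · rintro ⟨z, hz, rfl⟩
    exact ⟨⟨z, hz⟩, rfl⟩

/-- The integral classes form a full lattice in the second cohomology. -/
theorem Good.exists_basis2 [Finite ι] (hF : F.Good) :
    ∃ (r : ℕ) (b : Module.Basis (Fin r) ℝ (F.Coh 1)), (∀ i, b i ∈ hF.lat2) ∧
      ∀ h ∈ hF.lat2, ∃! n : Fin r → ℤ, h = ∑ i, n i • b i := by
  obtain ⟨r, b, z, h1, h2⟩ := exists_basis (M1 := dlt1 U) hF.cl2 hF.cl2_surjective
    hF.cl2_eq_zero_iff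
  exact ⟨r, b, fun i => h1 i ▸ intCl_mem_Lam _ _, h2⟩

theorem Good.finite2 [Finite ι] (hF : F.Good) : Module.Finite ℝ (F.Coh 1) := by
  obtain ⟨r, b, -⟩ := hF.exists_basis2
  exact Module.Finite.of_basis b

/-- Unimodularity: Poincare duality for integral cycles of the nerve, together with integrality,
makes the lattice of integral classes unimodular. -/
theorem Good.exists_unimodular2 [Fintype (N2 U)] (hF : F.Good) [Finite ι]
    (I : F.Coh 1 →ₗ[ℝ] F.Coh 1 →ₗ[ℝ] ℝ)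
    (hint : ∀ x ∈ hF.lat2, ∀ y ∈ hF.lat2, ∃ n : ℤ, I x y = n)
    (hPD : ∀ c : N2 U → ℤ, IsCycle (dlt1 U) c → ∃ x ∈ hF.lat2,
      ∀ (y : LinearMap.ker (F.d (k := 2) (V := ⊤))) (m : ι → ι → ι → ℝ), F.Zig y.1 m →
        I x (F.cls y) = ∑ p : N2 U, (c p : ℝ) * m p.1.1 p.1.2.1 p.1.2.2) :
    ∃ (r : ℕ) (b : Module.Basis (Fin r) ℝ (F.Coh 1)) (G : Matrix (Fin r) (Fin r) ℤ),
      (∀ i, b i ∈ hF.lat2) ∧ (∀ h ∈ hF.lat2, ∃! n : Fin r → ℤ, h = ∑ i, n i • b i) ∧
      (∀ i j, I (b i) (b j) = G i j) ∧ IsUnit G.det := by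
  refine exists_unimodular (M1 := dlt1 U) (M2 := dlt2 U) (fun u => dlt2_dlt1 u) hF.cl2
    hF.cl2_surjective hF.cl2_eq_zero_iff I hint fun c hc => ?_
  obtain ⟨x, hx, h⟩ := hPD c hc
  refine ⟨x, hx, fun y => ?_⟩
  rw [hF.cl2_apply, h _ _ (F.zig_curv2 (hF.coc2_ext2 y.1 y.2))]
  refine Finset.sum_congr rfl fun p _ => ?_
  rw [ext2_of_ne _ p.2]

/-- Every homomorphism from the lattice of integral classes to the integers is evaluation at an
integral cycle of the nerve. -/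
theorem Good.exists_cycle2 [Fintype (N2 U)] (hF : F.Good) (φ : hF.lat2 →+ ℤ) :
    ∃ c : N2 U → ℤ, IsCycle (dlt1 U) c ∧
      ∀ (z : N2 U → ℤ) (hz : (dlt2 U).app z = 0),
        φ ⟨hF.cl2 (intToReal _ ⟨z, hz⟩), hF.mem_lat2.2 ⟨z, hz, rfl⟩⟩ = ∑ j, c j * z j := by
  obtain ⟨c, hc, h⟩ := exists_cycle (M1 := dlt1 U) (M2 := dlt2 U) (fun u => dlt2_dlt1 u) hF.cl2
    hF.cl2_eq_zero_iff φ
  exact ⟨c, hc, fun z hz => h ⟨z, hz⟩⟩

end FormPre

end Vale.Agent.P267.H175
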