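import Vale.Agent.P267.H175.Nerve

/-!
The Cech-de Rham isomorphism in degree one, for an abstract complex of forms.
-/

namespace Vale.Agent.P267.H175

open TopologicalSpace

universe u v w

variable {X : Type u} [TopologicalSpace X] {ι : Type v} {U : ι → Opens X}

namespace FormPre

variable (F : FormPre.{u, v, w} X U)

/-- The function `∑ j, m j i ρ j` on `U i`. -/
noncomputable def fn1 (i : ι) : (ι → ι → ℝ) →ₗ[ℝ] F.A 0 (U i) :=
  F.avg ∘ₗ LinearMap.pi fun j => F.cst ∘ₗ (LinearMap.proj i ∘ₗ LinearMap.proj j)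

theorem fn1_apply (i : ι) (m : ι → ι → ℝ) :
    F.fn1 i m = F.avg (fun j => F.cst (m j i)) := rfl

/-- The closed one-form of a one-cocycle. -/
noncomputable def curv1 : (ι → ι → ℝ) →ₗ[ℝ] F.A 1 ⊤ :=
  F.glue ∘ₗ LinearMap.pi fun j => F.d ∘ₗ F.fn1 j

theorem curv1_apply (m : ι → ι → ℝ) : F.curv1 m = F.glue (fun j => F.d (F.fn1 j m)) := rfl

/-- The cocycle identity for one-cochains. -/
def Coc1 (m : ι → ι → ℝ) : Prop :=
  ∀ i j k, F.cst (V := U i ⊓ U j ⊓ U k) (m j k - m i k + m i j) = 0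

/-- The zigzag between a closed one-form and a one-cochain with real values. -/
def Zig1 (y : F.A 1 ⊤) (c : ι → ι → ℝ) : Prop :=
  ∃ b : ∀ i, F.A 0 (U i), (∀ i, F.d (b i) = F.res le_top y) ∧
    (∀ i j, F.res (V := U i ⊓ U j) inf_le_right (b j) - F.res inf_le_left (b i) = F.cst (c i j))

theorem Zig1.sub {y y' : F.A 1 ⊤} {c c' : ι → ι → ℝ} (h : F.Zig1 y c) (h' : F.Zig1 y' c') :
    F.Zig1 (y - y') (c - c') := by
  obtain ⟨b, h1, h2⟩ := h
  obtain ⟨b', h1', h2'⟩ := h'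
  refine ⟨fun i => b i - b' i, fun i => ?_, fun i j => ?_⟩
  · rw [map_sub, map_sub, h1, h1']
  · simp only [map_sub, Pi.sub_apply]
    rw [← h2, ← h2']
    abel

theorem Zig1.coc1 {y : F.A 1 ⊤} {c : ι → ι → ℝ} (h : F.Zig1 y c) : F.Coc1 c := by
  obtain ⟨b, h1, h2⟩ := h
  intro i j k
  have e1 := congrArg (F.res (V := U i ⊓ U j ⊓ U k)
    (le_inf (inf_le_left.trans inf_le_right) inf_le_right)) (h2 j k)
  have e2 := congrArg (F.res (V := U i ⊓ U j ⊓ U k)
    (le_inf (inf_le_left.trans inf_le_left) inf_le_right)) (h2 i k)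
  have e3 := congrArg (F.res (V := U i ⊓ U j ⊓ U k) inf_le_left) (h2 i j)
  simp only [map_sub, F.res_res, F.res_cst] at e1 e2 e3
  rw [map_add, map_sub, ← e1, ← e2, ← e3]
  abel

theorem zig_curv1 {m : ι → ι → ℝ} (hm : F.Coc1 m) : F.Zig1 (F.curv1 m) m := by
  have hδ : ∀ i j, F.res (V := U i ⊓ U j) inf_le_right (F.fn1 j m) -
      F.res inf_le_left (F.fn1 i m) = F.cst (m i j) := by
    intro i j
    rw [fn1_apply, fn1_apply, F.res_avg, F.res_avg, ← map_sub]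
    rw [← F.avg_res (F.cst (V := U i ⊓ U j) (m i j))]
    congr 1
    funext l
    simp only [Pi.sub_apply, F.res_cst]
    rw [← map_sub, ← sub_eq_zero, ← map_sub]
    have := congrArg (F.res (V := U l ⊓ (U i ⊓ U j)) (le_inf (le_inf
      inf_le_left (inf_le_right.trans inf_le_left)) (inf_le_right.trans inf_le_right))) (hm l i j)
    rw [F.res_cst, map_zero] at this
    rw [← neg_eq_zero, ← map_neg, ← this]
    congr 1
    ring
  refine ⟨fun i => F.fn1 i m, fun i => ?_, hδ⟩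
  rw [curv1_apply, F.res_glue]
  intro i j
  rw [F.res_d, F.res_d, ← sub_eq_zero, ← map_sub, hδ, F.d_cst]

theorem Zig1.closed {y : F.A 1 ⊤} {c : ι → ι → ℝ} (h : F.Zig1 y c) : F.d y = 0 := by
  obtain ⟨b, h1, h2⟩ := h
  refine F.eq_of_res_top _ _ fun j => ?_
  rw [F.res_d, ← h1, F.d_d, map_zero]

theorem Zig1.exact_of_zero {y : F.A 1 ⊤} (h : F.Zig1 y 0) : ∃ η, F.d η = y := by
  obtain ⟨b, h1, h2⟩ := h
  obtain ⟨ζ, hζ⟩ := F.exists_glue b (fun i j => by
    have h3 := h2 i j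
    simp only [Pi.zero_apply, map_zero] at h3
    rwa [sub_eq_zero] at h3)
  refine ⟨ζ, F.eq_of_res_top _ _ fun j => ?_⟩
  rw [F.res_d, hζ, h1]

theorem zig1_zero_coboundary (u : ι → ℝ) : F.Zig1 0 (fun i j => u j - u i) := by
  refine ⟨fun i => F.cst (u i), fun i => ?_, fun i j => ?_⟩
  · rw [F.d_cst, map_zero]
  · simp only [F.res_cst, map_sub]

theorem Zig1.congr {y : F.A 1 ⊤} {c c' : ι → ι → ℝ} (h : F.Zig1 y c)
    (hc : ∀ i j, F.cst (V := U i ⊓ U j) (c i j) = F.cst (c' i j)) : F.Zig1 y c' := by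
  obtain ⟨b, h1, h2⟩ := h
  exact ⟨b, h1, fun i j => by rw [h2, hc]⟩

theorem exists_zig1 (h1 : ∀ i, F.Pk 0 (U i)) (h0 : ∀ i j, F.P0 (U i ⊓ U j)) (y : F.A 1 ⊤)
    (hy : F.d y = 0) : ∃ c, F.Zig1 y c := by
  choose b hb using fun i => h1 i (F.res le_top y) (by rw [← F.res_d, hy, map_zero])
  choose c hc using fun i j => h0 i j (F.res inf_le_right (b j) - F.res inf_le_left (b i)) (by
    rw [map_sub, ← F.res_d, ← F.res_d, hb, hb, F.res_res, F.res_res]
    exact sub_self _)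
  exact ⟨c, b, hb, hc⟩

theorem Zig1.coboundary_of_exact (h0 : ∀ i, F.P0 (U i)) {y : F.A 1 ⊤} {c : ι → ι → ℝ}
    (h : F.Zig1 y c) (ζ : F.A 0 ⊤) (hζ : F.d ζ = y) :
    ∃ u : ι → ℝ, ∀ i j, F.cst (V := U i ⊓ U j) (c i j) = F.cst (u j - u i) := by
  obtain ⟨b, g1, g2⟩ := h
  choose u hu using fun i => h0 i (b i - F.res le_top ζ) (by
    rw [map_sub, g1, ← F.res_d, hζ, sub_self])
  refine ⟨u, fun i j => ?_⟩
  rw [← g2, map_sub]
  have e1 := congrArg (F.res (V := U i ⊓ U j) inf_le_right) (hu j)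
  have e2 := congrArg (F.res (V := U i ⊓ U j) inf_le_left) (hu i)
  simp only [map_sub, F.res_res, F.res_cst] at e1 e2
  rw [← e1, ← e2]
  abel

end FormPre

/-- Members of the cover which are not empty. -/
abbrev N0 (U : ι → Opens X) : Type v := {i : ι // U i ≠ ⊥}

variable (U) in
/-- The Cech differential from zero-cochains to one-cochains. -/
def dlt0 : IMap (N0 U) (N1 U) where
  n := 2
  sgn := ![1, -1]
  f := ![fun p => ⟨p.1.2, ne_bot_mono inf_le_right p.2⟩,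
    fun p => ⟨p.1.1, ne_bot_mono inf_le_left p.2⟩]

theorem dlt0_app {A : Type*} [AddCommGroup A] (u : N0 U → A) (i j : ι) (h : U i ⊓ U j ≠ ⊥) :
    (dlt0 U).app u ⟨(i, j), h⟩
      = u ⟨j, ne_bot_mono inf_le_right h⟩ - u ⟨i, ne_bot_mono inf_le_left h⟩ := by
  rw [IMap.app_apply]
  show ∑ r : Fin 2, _ = _
  simp only [dlt0, Fin.sum_univ_two]
  simp [sub_eq_add_neg]

/-- Extension by zero of a cochain on nonempty double intersections. -/
noncomputable def ext1 : (N1 U → ℝ) →ₗ[ℝ] (ι → ι → ℝ) := by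
  classical
  exact
  { toFun := fun z i j => if h : U i ⊓ U j ≠ ⊥ then z ⟨(i, j), h⟩ else 0
    map_add' := fun z z' => by
      funext i j
      by_cases h : U i ⊓ U j ≠ ⊥
      · simp only [Pi.add_apply, dif_pos h]
      · simp only [Pi.add_apply, dif_neg h, add_zero]
    map_smul' := fun c z => by
      funext i j
      by_cases h : U i ⊓ U j ≠ ⊥
      · simp only [Pi.smul_apply, dif_pos h, RingHom.id_apply]
      · simp only [Pi.smul_apply, dif_neg h, smul_zero, RingHom.id_apply] }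

theorem ext1_of_ne (z : N1 U → ℝ) {i j : ι} (h : U i ⊓ U j ≠ ⊥) :
    ext1 z i j = z ⟨(i, j), h⟩ := by
  classical
  exact dif_pos h

/-- Restriction of a cochain to nonempty intersections. -/
def rst1 (c : ι → ι → ℝ) : N1 U → ℝ := fun p => c p.1.1 p.1.2

namespace FormPre

variable {F : FormPre.{u, v, w} X U}

theorem Good.coc1_ext1 (hF : F.Good) (z : N1 U → ℝ) (hz : (dlt1 U).app z = 0) :
    F.Coc1 (ext1 z) := by
  intro i j k
  rw [← map_zero (F.cst)]
  refine hF.cst_eq fun h => ?_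
  have h1 := congrFun hz ⟨(i, j, k), h⟩
  rw [dlt1_app] at h1
  rw [ext1_of_ne _ (ne_bot_mono (le_inf (inf_le_left.trans inf_le_right) inf_le_right) h),
    ext1_of_ne _ (ne_bot_mono (le_inf (inf_le_left.trans inf_le_left) inf_le_right) h),
    ext1_of_ne _ (ne_bot_mono inf_le_left h)]
  exact h1

theorem Good.dlt1_rst1 (hF : F.Good) {c : ι → ι → ℝ} (hc : F.Coc1 c) :
    (dlt1 U).app (rst1 (U := U) c) = 0 := by
  funext p
  obtain ⟨⟨i, j, k⟩, h⟩ := p
  rw [dlt1_app]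
  have h1 := hc i j k
  rw [← map_zero (F.cst)] at h1
  exact hF.inj h h1

/-- The class of the closed one-form of a real one-cocycle of the nerve. -/
noncomputable def Good.cl1 (hF : F.Good) : LinearMap.ker ((dlt1 U).lin ℝ) →ₗ[ℝ] F.Coh 0 where
  toFun z := F.cls ⟨F.curv1 (ext1 z.1), (F.zig_curv1 (hF.coc1_ext1 z.1 z.2)).closed⟩
  map_add' z z' := by
    rw [cls, cls, cls, ← Submodule.Quotient.mk_add]
    congr 1
    apply Subtype.ext
    simp
  map_smul' c z := by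
    rw [cls, cls, RingHom.id_apply, ← Submodule.Quotient.mk_smul]
    congr 1
    apply Subtype.ext
    simp

theorem Good.cl1_apply (hF : F.Good) (z : LinearMap.ker ((dlt1 U).lin ℝ)) :
    hF.cl1 z = F.cls ⟨F.curv1 (ext1 z.1), (F.zig_curv1 (hF.coc1_ext1 z.1 z.2)).closed⟩ := rfl

theorem Good.cl1_of_zig (hF : F.Good) {y : F.A 1 ⊤} {c : ι → ι → ℝ} (h : F.Zig1 y c) :
    hF.cl1 ⟨rst1 c, hF.dlt1_rst1 (Zig1.coc1 F h)⟩ = F.cls ⟨y, Zig1.closed F h⟩ := by
  rw [hF.cl1_apply, ← sub_eq_zero, cls, cls, ← Submodule.Quotient.mk_sub]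
  show F.cls _ = 0
  rw [cls_eq_zero]
  have h1 := F.zig_curv1 (hF.coc1_ext1 (rst1 (U := U) c) (hF.dlt1_rst1 (Zig1.coc1 F h)))
  have h2 := Zig1.sub F h1 h
  refine Zig1.exact_of_zero F (Zig1.congr F h2 fun i j => ?_)
  refine hF.cst_eq fun h => ?_
  rw [Pi.sub_apply, Pi.sub_apply, ext1_of_ne _ h]
  simp [rst1]

theorem Good.cl1_surjective (hF : F.Good) : Function.Surjective hF.cl1 := by
  intro x
  obtain ⟨y, rfl⟩ := Submodule.Quotient.mk_surjective _ x
  obtain ⟨c, hc⟩ := F.exists_zig1 hF.p1_1 hF.p0_2 y.1 y.2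
  exact ⟨_, hF.cl1_of_zig hc⟩

theorem Good.cl1_eq_zero_iff (hF : F.Good) (z : LinearMap.ker ((dlt1 U).lin ℝ)) :
    hF.cl1 z = 0 ↔ ∃ u : N0 U → ℝ, (dlt0 U).app u = z.1 := by
  classical
  have hz := F.zig_curv1 (hF.coc1_ext1 z.1 z.2)
  rw [hF.cl1_apply, cls_eq_zero]
  constructor
  · rintro ⟨ζ, hζ⟩
    obtain ⟨u, hu⟩ := Zig1.coboundary_of_exact F hF.p0_1 hz ζ hζ
    refine ⟨fun p => u p.1, ?_⟩
    funext p
    obtain ⟨⟨i, j⟩, h⟩ := p
    rw [dlt0_app]
    have h1 := hF.inj h (hu i j)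
    rw [ext1_of_ne _ h] at h1
    exact h1.symm
  · rintro ⟨u, hu⟩
    let u' : ι → ℝ := fun i => if h : U i ≠ ⊥ then u ⟨i, h⟩ else 0
    have hu' : ∀ i (h : U i ≠ ⊥), u' i = u ⟨i, h⟩ := fun i h => dif_pos h
    have h1 := Zig1.sub F hz (F.zig1_zero_coboundary u')
    have h2 : F.Zig1 (F.curv1 (ext1 z.1) - 0) 0 := Zig1.congr F h1 fun i j => by
      refine hF.cst_eq fun h => ?_
      have h3 := congrFun hu ⟨(i, j), h⟩
      rw [dlt0_app] at h3
      simp only [Pi.sub_apply, Pi.zero_apply]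
      rw [ext1_of_ne _ h, ← h3, hu' j (ne_bot_mono inf_le_right h),
        hu' i (ne_bot_mono inf_le_left h)]
      ring
    rw [sub_zero] at h2
    exact Zig1.exact_of_zero F h2

/-- The lattice of integral classes in the first cohomology. -/
noncomputable def Good.lat1 (hF : F.Good) : AddSubgroup (F.Coh 0) := Lam hF.cl1

/-- The integral classes form a full lattice in the first cohomology. -/
theorem Good.exists_basis1 [Finite ι] (hF : F.Good) :
    ∃ (r : ℕ) (b : Module.Basis (Fin r) ℝ (F.Coh 0)), (∀ i, b i ∈ hF.lat1) ∧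
      ∀ h ∈ hF.lat1, ∃! n : Fin r → ℤ, h = ∑ i, n i • b i := by
  obtain ⟨r, b, z, h1, h2⟩ := exists_basis (M1 := dlt0 U) hF.cl1 hF.cl1_surjective
    hF.cl1_eq_zero_iff
  exact ⟨r, b, fun i => h1 i ▸ intCl_mem_Lam _ _, h2⟩

end FormPre

end Vale.Agent.P267.H175
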