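import Mathlib

/-!
An abstract complex of presheaves of real vector spaces with averaging operators for an open
cover (in the application: smooth forms and a partition of unity).  The Cech-de Rham zigzag in
degree two.
-/

namespace Vale.Agent.P267.H175

open TopologicalSpace

universe u v w

/-- A complex of presheaves of real vector spaces on the opens of `X`, with averaging operators
for the cover `U` (in the application `avg ω = ∑ j, ρ j • ω j`, where `ρ` is a partition of unity
subordinate to `U`) and constants in degree zero. -/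
structure FormPre (X : Type u) [TopologicalSpace X] {ι : Type v} (U : ι → Opens X) where
  /-- forms of degree `k` on `V` -/
  A : ℕ → Opens X → Type w
  [grp : ∀ k V, AddCommGroup (A k V)]
  [mod : ∀ k V, Module ℝ (A k V)]
  /-- restriction -/
  res : ∀ {k : ℕ} {V W : Opens X}, V ≤ W → A k W →ₗ[ℝ] A k V
  res_self : ∀ {k : ℕ} {V : Opens X} (h : V ≤ V) (ω : A k V), res h ω = ω
  res_res : ∀ {k : ℕ} {V W Y : Opens X} (h : V ≤ W) (h' : W ≤ Y) (ω : A k Y),
    res h (res h' ω) = res (h.trans h') ω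
  /-- exterior derivative -/
  d : ∀ {k : ℕ} {V : Opens X}, A k V →ₗ[ℝ] A (k + 1) V
  d_d : ∀ {k : ℕ} {V : Opens X} (ω : A k V), d (d ω) = 0
  res_d : ∀ {k : ℕ} {V W : Opens X} (h : V ≤ W) (ω : A k W), res h (d ω) = d (res h ω)
  /-- averaging with a partition of unity -/
  avg : ∀ {k : ℕ} {V : Opens X}, (∀ j, A k (U j ⊓ V)) →ₗ[ℝ] A k V
  avg_res : ∀ {k : ℕ} {V : Opens X} (ω : A k V), avg (fun _ => res inf_le_right ω) = ω
  res_avg : ∀ {k : ℕ} {V W : Opens X} (h : V ≤ W) (ω : ∀ j, A k (U j ⊓ W)),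
    res h (avg ω) = avg (fun j => res (inf_le_inf_left (U j) h) (ω j))
  /-- constant functions -/
  cst : ∀ {V : Opens X}, ℝ →ₗ[ℝ] A 0 V
  d_cst : ∀ {V : Opens X} (r : ℝ), d (cst (V := V) r) = 0
  res_cst : ∀ {V W : Opens X} (h : V ≤ W) (r : ℝ), res h (cst r) = cst r

attribute [instance] FormPre.grp FormPre.mod

namespace FormPre

variable {X : Type u} [TopologicalSpace X] {ι : Type v} {U : ι → Opens X} (F : FormPre.{u, v, w} X U)

theorem res_irrel {k : ℕ} {V W : Opens X} (h h' : V ≤ W) (ω : F.A k W) : F.res h ω = F.res h' ω :=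
  rfl

/-- Gluing. -/
theorem res_avg_of_compat {k : ℕ} {V : Opens X} (ω : ∀ j, F.A k (U j ⊓ V))
    (hω : ∀ i j, F.res (V := U j ⊓ (U i ⊓ V)) (inf_le_inf_left _ inf_le_right) (ω j) =
      F.res inf_le_right (ω i)) (i : ι) :
    F.res (V := U i ⊓ V) inf_le_right (F.avg ω) = ω i := by
  rw [F.res_avg]
  conv_rhs => rw [← F.avg_res (ω i)]
  congr 1
  funext j
  exact hω i j

/-- Separation. -/
theorem eq_zero_of_res {k : ℕ} {V : Opens X} (ω : F.A k V)
    (h : ∀ j, F.res (V := U j ⊓ V) inf_le_right ω = 0) : ω = 0 := by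
  rw [← F.avg_res ω]
  have : (fun j => F.res (V := U j ⊓ V) inf_le_right ω) = 0 := funext h
  rw [this, map_zero]

theorem eq_of_res {k : ℕ} {V : Opens X} (ω ω' : F.A k V)
    (h : ∀ j, F.res (V := U j ⊓ V) inf_le_right ω = F.res inf_le_right ω') : ω = ω' := by
  rw [← sub_eq_zero]
  refine F.eq_zero_of_res _ fun j => ?_
  rw [map_sub, h j, sub_self]

/-- Separation over the whole space, in terms of the restrictions to the members of the cover. -/
theorem eq_of_res_top {k : ℕ} (ω ω' : F.A k ⊤)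
    (h : ∀ j, F.res (V := U j) le_top ω = F.res le_top ω') : ω = ω' := by
  refine F.eq_of_res _ _ fun j => ?_
  have := congrArg (F.res (V := U j ⊓ ⊤) inf_le_left) (h j)
  simpa only [F.res_res] using this

/-- Gluing over the whole space. -/
theorem exists_glue {k : ℕ} (ω : ∀ j, F.A k (U j))
    (hω : ∀ i j, F.res (V := U i ⊓ U j) inf_le_right (ω j) = F.res inf_le_left (ω i)) :
    ∃ η : F.A k ⊤, ∀ i, F.res le_top η = ω i := by
  refine ⟨F.avg fun j => F.res inf_le_left (ω j), fun i => ?_⟩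
  have h1 := F.res_avg_of_compat (V := ⊤) (fun j => F.res inf_le_left (ω j)) (fun i j => by
    rw [F.res_res, F.res_res]
    have := congrArg (F.res (V := U j ⊓ (U i ⊓ ⊤)) (le_inf (inf_le_right.trans inf_le_left)
      inf_le_left)) (hω i j)
    rw [F.res_res, F.res_res] at this
    exact this) i
  have h2 := congrArg (F.res (V := U i) (le_inf le_rfl le_top)) h1
  rw [F.res_res, F.res_res, F.res_self] at h2
  exact h2

/-- The local gluing of a family on the cover, as a linear map. -/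
noncomputable def glue {k : ℕ} : (∀ j, F.A k (U j)) →ₗ[ℝ] F.A k ⊤ :=
  F.avg ∘ₗ LinearMap.pi fun j => (F.res inf_le_left) ∘ₗ LinearMap.proj j

theorem glue_apply {k : ℕ} (ω : ∀ j, F.A k (U j)) :
    F.glue ω = F.avg (fun j => F.res inf_le_left (ω j)) := rfl

theorem res_glue {k : ℕ} (ω : ∀ j, F.A k (U j))
    (hω : ∀ i j, F.res (V := U i ⊓ U j) inf_le_right (ω j) = F.res inf_le_left (ω i)) (i : ι) :
    F.res le_top (F.glue ω) = ω i := by
  have h1 := F.res_avg_of_compat (V := ⊤) (fun j => F.res inf_le_left (ω j)) (fun i j => by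
    rw [F.res_res, F.res_res]
    have := congrArg (F.res (V := U j ⊓ (U i ⊓ ⊤)) (le_inf (inf_le_right.trans inf_le_left)
      inf_le_left)) (hω i j)
    rw [F.res_res, F.res_res] at this
    exact this) i
  have h2 := congrArg (F.res (V := U i) (le_inf le_rfl le_top)) h1
  rw [F.res_res, F.res_res, F.res_self] at h2
  exact h2

/-! ### The explicit cochains of an abstract two-cocycle -/

/-- The function `∑ k, m k i j ρ k` on `U i ⊓ U j`. -/
noncomputable def fn2 (i j : ι) : (ι → ι → ι → ℝ) →ₗ[ℝ] F.A 0 (U i ⊓ U j) :=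
  F.avg ∘ₗ LinearMap.pi fun k => F.cst ∘ₗ
    (LinearMap.proj j ∘ₗ LinearMap.proj i ∘ₗ LinearMap.proj k)

theorem fn2_apply (i j : ι) (m : ι → ι → ι → ℝ) :
    F.fn2 i j m = F.avg (fun k => F.cst (m k i j)) := rfl

/-- The one-form `∑ j, ρ j d (fn2 j i)` on `U i`. -/
noncomputable def form2 (i : ι) : (ι → ι → ι → ℝ) →ₗ[ℝ] F.A 1 (U i) :=
  F.avg ∘ₗ LinearMap.pi fun j => F.d ∘ₗ F.fn2 j i

theorem form2_apply (i : ι) (m : ι → ι → ι → ℝ) :
    F.form2 i m = F.avg (fun j => F.d (F.fn2 j i m)) := rfl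

/-- The closed two-form of a two-cocycle. -/
noncomputable def curv2 : (ι → ι → ι → ℝ) →ₗ[ℝ] F.A 2 ⊤ :=
  F.glue ∘ₗ LinearMap.pi fun j => F.d ∘ₗ F.form2 j

theorem curv2_apply (m : ι → ι → ι → ℝ) :
    F.curv2 m = F.glue (fun j => F.d (F.form2 j m)) := rfl

/-- The cocycle identity for `m`, as an identity of constants on fourfold intersections (it is
empty on empty intersections). -/
def Coc2 (m : ι → ι → ι → ℝ) : Prop :=
  ∀ i j k l, F.cst (V := U i ⊓ U j ⊓ U k ⊓ U l) (m j k l - m i k l + m i j l - m i j k) = 0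

/-- The zigzag between a closed two-form and a two-cochain with real values. -/
def Zig (y : F.A 2 ⊤) (c : ι → ι → ι → ℝ) : Prop :=
  ∃ (η : ∀ i, F.A 1 (U i)) (b : ∀ i j, F.A 0 (U i ⊓ U j)),
    (∀ i, F.d (η i) = F.res le_top y) ∧
    (∀ i j, F.res inf_le_right (η j) - F.res inf_le_left (η i) = F.d (b i j)) ∧
    (∀ i j k, F.res (V := U i ⊓ U j ⊓ U k)
        (le_inf (inf_le_left.trans inf_le_right) inf_le_right) (b j k)
      - F.res (le_inf (inf_le_left.trans inf_le_left) inf_le_right) (b i k)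
      + F.res inf_le_left (b i j) = F.cst (c i j k))

theorem Zig.add {y y' : F.A 2 ⊤} {c c' : ι → ι → ι → ℝ} (h : F.Zig y c) (h' : F.Zig y' c') :
    F.Zig (y + y') (c + c') := by
  obtain ⟨η, b, h1, h2, h3⟩ := h
  obtain ⟨η', b', h1', h2', h3'⟩ := h'
  refine ⟨fun i => η i + η' i, fun i j => b i j + b' i j, fun i => ?_, fun i j => ?_,
    fun i j k => ?_⟩
  · rw [map_add, map_add, h1, h1']
  · simp only [map_add]
    rw [← h2, ← h2']
    abel
  · simp only [map_add, Pi.add_apply]
    rw [← h3, ← h3']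
    abel

theorem Zig.smul {y : F.A 2 ⊤} {c : ι → ι → ι → ℝ} (h : F.Zig y c) (r : ℝ) :
    F.Zig (r • y) (r • c) := by
  obtain ⟨η, b, h1, h2, h3⟩ := h
  refine ⟨fun i => r • η i, fun i j => r • b i j, fun i => ?_, fun i j => ?_, fun i j k => ?_⟩
  · rw [map_smul, map_smul, h1]
  · simp only [map_smul]
    rw [← h2, smul_sub]
  · simp only [map_smul, Pi.smul_apply]
    rw [← h3, smul_add, smul_sub]

theorem Zig.neg {y : F.A 2 ⊤} {c : ι → ι → ι → ℝ} (h : F.Zig y c) : F.Zig (-y) (-c) := by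
  have := Zig.smul F h (-1)
  simpa using this

theorem Zig.sub {y y' : F.A 2 ⊤} {c c' : ι → ι → ι → ℝ} (h : F.Zig y c) (h' : F.Zig y' c') :
    F.Zig (y - y') (c - c') := by
  rw [sub_eq_add_neg, sub_eq_add_neg]
  exact Zig.add F h (Zig.neg F h')

/-- The cochain at the end of a zigzag is a cocycle. -/
theorem Zig.coc2 {y : F.A 2 ⊤} {c : ι → ι → ι → ℝ} (h : F.Zig y c) : F.Coc2 c := by
  obtain ⟨η, b, h1, h2, h3⟩ := h
  intro i j k l
  have e1 := congrArg (F.res (V := U i ⊓ U j ⊓ U k ⊓ U l)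
    (le_inf (le_inf (inf_le_left.trans (inf_le_left.trans inf_le_right))
      (inf_le_left.trans inf_le_right)) inf_le_right)) (h3 j k l)
  have e2 := congrArg (F.res (V := U i ⊓ U j ⊓ U k ⊓ U l)
    (le_inf (le_inf (inf_le_left.trans (inf_le_left.trans inf_le_left))
      (inf_le_left.trans inf_le_right)) inf_le_right)) (h3 i k l)
  have e3 := congrArg (F.res (V := U i ⊓ U j ⊓ U k ⊓ U l)
    (le_inf (le_inf (inf_le_left.trans (inf_le_left.trans inf_le_left))
      (inf_le_left.trans (inf_le_left.trans inf_le_right))) inf_le_right)) (h3 i j l)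
  have e4 := congrArg (F.res (V := U i ⊓ U j ⊓ U k ⊓ U l) inf_le_left) (h3 i j k)
  simp only [map_add, map_sub, F.res_res, F.res_cst] at e1 e2 e3 e4
  rw [map_sub, map_add, map_sub, ← e1, ← e2, ← e3, ← e4]
  abel

/-- The zigzag of the explicit closed two-form of a cocycle. -/
theorem zig_curv2 {m : ι → ι → ι → ℝ} (hm : F.Coc2 m) : F.Zig (F.curv2 m) m := by
  have hδ : ∀ i j k, F.res (V := U i ⊓ U j ⊓ U k)
        (le_inf (inf_le_left.trans inf_le_right) inf_le_right) (F.fn2 j k m)
      - F.res (le_inf (inf_le_left.trans inf_le_left) inf_le_right) (F.fn2 i k m)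
      + F.res inf_le_left (F.fn2 i j m) = F.cst (m i j k) := by
    intro i j k
    rw [fn2_apply, fn2_apply, fn2_apply, F.res_avg, F.res_avg, F.res_avg, ← map_sub, ← map_add]
    rw [← F.avg_res (F.cst (V := U i ⊓ U j ⊓ U k) (m i j k))]
    congr 1
    funext l
    simp only [Pi.add_apply, Pi.sub_apply, F.res_cst]
    rw [← map_sub, ← map_add, ← sub_eq_zero, ← map_sub]
    have := congrArg (F.res (V := U l ⊓ (U i ⊓ U j ⊓ U k)) (le_inf (le_inf (le_inf
      inf_le_left (inf_le_right.trans (inf_le_left.trans inf_le_left)))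
      (inf_le_right.trans (inf_le_left.trans inf_le_right))) (inf_le_right.trans inf_le_right)))
      (hm l i j k)
    rw [F.res_cst, map_zero] at this
    rw [← neg_eq_zero, ← map_neg, ← this]
    congr 1
    ring
  have hθ : ∀ i j, F.res inf_le_right (F.form2 j m) - F.res inf_le_left (F.form2 i m)
      = F.d (F.fn2 i j m) := by
    intro i j
    rw [form2_apply, form2_apply, F.res_avg, F.res_avg, ← map_sub]
    rw [← F.avg_res (F.d (F.fn2 i j m))]
    congr 1
    funext l
    simp only [Pi.sub_apply, F.res_d]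
    rw [← map_sub]
    have h1 := hδ l i j
    have h2 := congrArg (F.res (V := U l ⊓ (U i ⊓ U j)) (le_inf (le_inf inf_le_left
      (inf_le_right.trans inf_le_left)) (inf_le_right.trans inf_le_right))) h1
    have h3 := congrArg F.d h2
    simp only [map_add, map_sub, F.res_res, F.res_cst, F.d_cst] at h3
    rw [map_sub]
    rw [← sub_eq_zero, ← neg_eq_zero, ← h3]
    abel
  refine ⟨fun i => F.form2 i m, fun i j => F.fn2 i j m, fun i => ?_, hθ, hδ⟩
  rw [curv2_apply, F.res_glue]
  intro i j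
  rw [F.res_d, F.res_d, ← sub_eq_zero, ← map_sub, hθ, F.d_d]

/-- The closed two-form of a cocycle is closed. -/
theorem Zig.closed {y : F.A 2 ⊤} {c : ι → ι → ι → ℝ} (h : F.Zig y c) : F.d y = 0 := by
  obtain ⟨η, b, h1, h2, h3⟩ := h
  refine F.eq_of_res_top _ _ fun j => ?_
  rw [F.res_d, ← h1, F.d_d, map_zero]

/-- A two-form with zero zigzag is exact. -/
theorem Zig.exact_of_zero {y : F.A 2 ⊤} (h : F.Zig y 0) : ∃ η, F.d η = y := by
  obtain ⟨η, b, h1, h2, h3⟩ := h
  -- `b` is a Cech cocycle with values in functions, hence a coboundary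
  let f : ∀ i, F.A 0 (U i) := fun i => F.avg fun j => b j i
  have hf : ∀ i j, F.res inf_le_right (f j) - F.res inf_le_left (f i) = b i j := by
    intro i j
    show F.res _ (F.avg _) - F.res _ (F.avg _) = _
    rw [F.res_avg, F.res_avg, ← map_sub]
    rw [← F.avg_res (b i j)]
    congr 1
    funext l
    simp only [Pi.sub_apply]
    have h4 := congrArg (F.res (V := U l ⊓ (U i ⊓ U j)) (le_inf (le_inf inf_le_left
      (inf_le_right.trans inf_le_left)) (inf_le_right.trans inf_le_right))) (h3 l i j)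
    simp only [map_add, map_sub, F.res_res, Pi.zero_apply, map_zero] at h4
    rw [← sub_eq_zero, ← neg_eq_zero, ← h4]
    abel
  obtain ⟨ζ, hζ⟩ := F.exists_glue (fun i => η i - F.d (f i)) (fun i j => by
    rw [map_sub, map_sub, F.res_d, F.res_d, ← sub_eq_zero]
    have h5 := h2 i j
    rw [← hf i j, map_sub] at h5
    rw [← sub_eq_zero] at h5
    rw [← h5]
    abel)
  refine ⟨ζ, F.eq_of_res_top _ _ fun j => ?_⟩
  rw [F.res_d, hζ, map_sub, F.d_d, sub_zero, h1]

/-- A coboundary of constants is the end of a zigzag of zero. -/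
theorem zig_zero_coboundary (u : ι → ι → ℝ) : F.Zig 0 (fun i j k => u j k - u i k + u i j) := by
  refine ⟨fun _ => 0, fun i j => F.cst (u i j), fun i => by simp, fun i j => ?_, fun i j k => ?_⟩
  · rw [F.d_cst]; simp
  · simp only [F.res_cst, map_add, map_sub]

/-- Change of a cochain which is not visible on nonempty intersections. -/
theorem Zig.congr {y : F.A 2 ⊤} {c c' : ι → ι → ι → ℝ} (h : F.Zig y c)
    (hc : ∀ i j k, F.cst (V := U i ⊓ U j ⊓ U k) (c i j k) = F.cst (c' i j k)) : F.Zig y c' := by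
  obtain ⟨η, b, h1, h2, h3⟩ := h
  exact ⟨η, b, h1, h2, fun i j k => by rw [h3, hc]⟩

/-! ### The Poincare lemma as a hypothesis -/

/-- The Poincare lemma in degree zero on `V`. -/
def P0 (V : Opens X) : Prop := ∀ f : F.A 0 V, F.d f = 0 → ∃ r : ℝ, f = F.cst r

/-- The Poincare lemma in degree `k + 1` on `V`. -/
def Pk (k : ℕ) (V : Opens X) : Prop := ∀ ω : F.A (k + 1) V, F.d ω = 0 → ∃ η : F.A k V, F.d η = ω

/-- Every closed two-form starts a zigzag. -/
theorem exists_zig (h2 : ∀ i, F.Pk 1 (U i)) (h1 : ∀ i j, F.Pk 0 (U i ⊓ U j))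
    (h0 : ∀ i j k, F.P0 (U i ⊓ U j ⊓ U k)) (y : F.A 2 ⊤) (hy : F.d y = 0) :
    ∃ c, F.Zig y c := by
  choose η hη using fun i => h2 i (F.res le_top y) (by rw [← F.res_d, hy, map_zero])
  choose b hb using fun i j => h1 i j (F.res inf_le_right (η j) - F.res inf_le_left (η i)) (by
    rw [map_sub, ← F.res_d, ← F.res_d, hη, hη, F.res_res, F.res_res]
    exact sub_self _)
  choose c hc using fun i j k => h0 i j k (F.res (V := U i ⊓ U j ⊓ U k)
        (le_inf (inf_le_left.trans inf_le_right) inf_le_right) (b j k)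
      - F.res (le_inf (inf_le_left.trans inf_le_left) inf_le_right) (b i k)
      + F.res inf_le_left (b i j)) (by
    rw [map_add, map_sub, ← F.res_d, ← F.res_d, ← F.res_d, hb, hb, hb]
    simp only [map_sub, F.res_res]
    abel)
  exact ⟨c, η, b, hη, fun i j => (hb i j).symm, hc⟩

/-- The end of a zigzag of an exact form is a coboundary of constants. -/
theorem Zig.coboundary_of_exact (h1 : ∀ i, F.Pk 0 (U i)) (h0 : ∀ i j, F.P0 (U i ⊓ U j))
    {y : F.A 2 ⊤} {c : ι → ι → ι → ℝ} (h : F.Zig y c) (ζ : F.A 1 ⊤) (hζ : F.d ζ = y) :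
    ∃ u : ι → ι → ℝ, ∀ i j k, F.cst (V := U i ⊓ U j ⊓ U k) (c i j k)
      = F.cst (u j k - u i k + u i j) := by
  obtain ⟨η, b, g1, g2, g3⟩ := h
  choose f hf using fun i => h1 i (η i - F.res le_top ζ) (by
    rw [map_sub, g1, ← F.res_d, hζ, sub_self])
  choose u hu using fun i j => h0 i j (b i j - (F.res inf_le_right (f j) - F.res inf_le_left (f i)))
    (by
      rw [map_sub, ← g2, map_sub, ← F.res_d, ← F.res_d, hf, hf, map_sub, map_sub, F.res_res,
        F.res_res]
      abel)
  refine ⟨u, fun i j k => ?_⟩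
  rw [← g3, map_add, map_sub]
  have e1 := congrArg (F.res (V := U i ⊓ U j ⊓ U k)
        (le_inf (inf_le_left.trans inf_le_right) inf_le_right)) (hu j k)
  have e2 := congrArg (F.res (V := U i ⊓ U j ⊓ U k)
        (le_inf (inf_le_left.trans inf_le_left) inf_le_right)) (hu i k)
  have e3 := congrArg (F.res (V := U i ⊓ U j ⊓ U k) inf_le_left) (hu i j)
  simp only [map_sub, F.res_res, F.res_cst] at e1 e2 e3
  rw [← e1, ← e2, ← e3]
  abel

end FormPre

end Vale.Agent.P267.H175
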