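import Vale.Agent.P267.H175.RPre

/-!
The complex of real forms is good for a cover by sets which are convex in charts.
-/

open scoped Manifold ContDiff Topology
open Set Filter TopologicalSpace

namespace Vale.Agent.P267.H175

/-- The open set `V` is contained in the domain of a chart of the atlas and is convex there. -/
def ChartConvex (E : Type*) [NormedAddCommGroup E] [NormedSpace ℝ E] {X : Type*}
    [TopologicalSpace X] [ChartedSpace E X] (V : Opens X) : Prop :=
  ∃ e ∈ atlas E X, (V : Set X) ⊆ e.source ∧ Convex ℝ (e '' (V : Set X))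

/-- All intersections of at most three members of the cover are chart convex. -/
structure GoodCov (E : Type*) [NormedAddCommGroup E] [NormedSpace ℝ E] {X : Type*}
    [TopologicalSpace X] [ChartedSpace E X] {ι : Type*} (U : ι → Opens X) : Prop where
  one : ∀ i, ChartConvex E (U i)
  two : ∀ i j, ChartConvex E (U i ⊓ U j)
  three : ∀ i j k, ChartConvex E (U i ⊓ U j ⊓ U k)

variable {E : Type*} [NormedAddCommGroup E] [NormedSpace ℝ E] [FiniteDimensional ℝ E]
variable {X : Type*} [TopologicalSpace X] [ChartedSpace E X] [IsManifold 𝓘(ℝ, E) ∞ X]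
variable {ι : Type*} {U : ι → Opens X}
  (f : SmoothPartitionOfUnity ι 𝓘(ℝ, E) X univ) (hf : ∀ i, tsupport (f i) ⊆ U i)

theorem formPre_P0 {V : Opens X} (hV : ChartConvex E V) : (formPre f hf).P0 V := by
  intro a ha
  obtain ⟨e, he, hVe, hconv⟩ := hV
  obtain ⟨r, hr⟩ := eq_const he V.isOpen hVe hconv a.2.1 (fun x hx => by
    have h1 : (dFV a).1 x = 0 := congrArg (fun b : FV E 1 V => b.1 x) ha
    rwa [dFV_apply a hx] at h1)
  refine ⟨r, FV_ext fun x hx => ?_⟩
  rw [hr x hx]
  exact (cstF_apply r hx).symm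

theorem formPre_Pk {k : ℕ} {V : Opens X} (hV : ChartConvex E V) : (formPre f hf).Pk k V := by
  intro a ha
  obtain ⟨e, he, hVe, hconv⟩ := hV
  obtain ⟨b, hb1, hb2⟩ := exists_prim he V.isOpen hVe hconv a.2.1 (fun x hx => by
    have h1 : (dFV a).1 x = 0 := congrArg (fun b : FV E (k + 1 + 1) V => b.1 x) ha
    rwa [dFV_apply a hx] at h1)
  refine ⟨mkF b hb1, FV_ext fun x hx => ?_⟩
  show (dFV (mkF b hb1)).1 x = a.1 x
  rw [dFV_apply _ hx, dF_congr (mkF_eventuallyEq b hb1 hx), hb2 x hx]

/-- The complex of real forms is good for a chart convex cover. -/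
theorem formPre_good (hU : GoodCov E U) : (formPre f hf).Good where
  bot k := ⟨fun a b => FV_ext fun x hx => absurd hx (by simp)⟩
  inj := by
    intro V hV r s hrs
    obtain ⟨x, hx⟩ : (V : Set X).Nonempty := by
      rw [Set.nonempty_iff_ne_empty]
      intro h
      exact hV (Opens.ext h)
    have h1 : (cstF (E := E) (V := V) r).1 x = (cstF (E := E) (V := V) s).1 x :=
      congrArg (fun b : FV E 0 V => b.1 x) hrs
    rw [cstF_apply r hx, cstF_apply s hx] at h1
    exact congrArg (fun g : E [⋀^Fin 0]→L[ℝ] ℝ => g 0) h1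
  p0_1 i := formPre_P0 f hf (hU.one i)
  p0_2 i j := formPre_P0 f hf (hU.two i j)
  p0_3 i j k := formPre_P0 f hf (hU.three i j k)
  p1_1 i := formPre_Pk f hf (hU.one i)
  p1_2 i j := formPre_Pk f hf (hU.two i j)
  p2_1 i := formPre_Pk f hf (hU.one i)

end Vale.Agent.P267.H175
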