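import Vale.Agent.P267.H175.Alt
import Vale.Agent.P267.H68.Cone

/-!
Real differential forms on a manifold, as plain functions: the value at `x` is the alternating form
in the coordinates `chartAt E x` (this is Mathlib's convention for the tangent space).  Local
expressions, smoothness, exterior derivative, Poincare lemma in a convex chart domain.
-/

open scoped Manifold ContDiff Topology
open Set Filter

namespace Vale.Agent.P267.H175

variable {E : Type*} [NormedAddCommGroup E] [NormedSpace ℝ E]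
variable {X : Type*} [TopologicalSpace X] [ChartedSpace E X]

/-- The local expression of the form `a` in the chart `e`. -/
noncomputable def loc {k : ℕ} (e : OpenPartialHomeomorph X E) (a : X → E [⋀^Fin k]→L[ℝ] ℝ) (z : E) :
    E [⋀^Fin k]→L[ℝ] ℝ :=
  (a (e.symm z)).compContinuousLinearMap
    (fderiv ℝ (fun y => chartAt E (e.symm z) (e.symm y)) z)

/-- Smoothness at a point, tested in the preferred chart. -/
def SmAt {k : ℕ} (a : X → E [⋀^Fin k]→L[ℝ] ℝ) (x : X) : Prop :=
  ContDiffAt ℝ ∞ (loc (chartAt E x) a) (chartAt E x x)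

/-- The exterior derivative. -/
noncomputable def dF {k : ℕ} (a : X → E [⋀^Fin k]→L[ℝ] ℝ) (x : X) : E [⋀^Fin (k + 1)]→L[ℝ] ℝ :=
  extDeriv (loc (chartAt E x) a) (chartAt E x x)

theorem comp_comp_alt {F G : Type*} [NormedAddCommGroup F] [NormedSpace ℝ F]
    [NormedAddCommGroup G] [NormedSpace ℝ G] {k : ℕ} (g : G [⋀^Fin k]→L[ℝ] ℝ) (A : F →L[ℝ] G)
    (B : E →L[ℝ] F) :
    (g.compContinuousLinearMap A).compContinuousLinearMap B =
      g.compContinuousLinearMap (A.comp B) := rfl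

theorem loc_add {k : ℕ} (e : OpenPartialHomeomorph X E) (a b : X → E [⋀^Fin k]→L[ℝ] ℝ) :
    loc e (a + b) = loc e a + loc e b := rfl

theorem loc_smul {k : ℕ} (e : OpenPartialHomeomorph X E) (c : ℝ) (a : X → E [⋀^Fin k]→L[ℝ] ℝ) :
    loc e (c • a) = c • loc e a := rfl

theorem loc_zero {k : ℕ} (e : OpenPartialHomeomorph X E) :
    loc e (0 : X → E [⋀^Fin k]→L[ℝ] ℝ) = 0 := rfl

theorem loc_fsmul {k : ℕ} (e : OpenPartialHomeomorph X E) (ρ : X → ℝ)
    (a : X → E [⋀^Fin k]→L[ℝ] ℝ) :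
    loc e (fun x => ρ x • a x) = fun z => ρ (e.symm z) • loc e a z := rfl

theorem loc_congr {k : ℕ} {e : OpenPartialHomeomorph X E} {a b : X → E [⋀^Fin k]→L[ℝ] ℝ} {z : E}
    (hz : z ∈ e.target) (h : a =ᶠ[𝓝 (e.symm z)] b) : loc e a =ᶠ[𝓝 z] loc e b := by
  have h1 := (e.symm.continuousAt hz).eventually h
  filter_upwards [h1] with y hy
  rw [loc, loc, hy]

theorem SmAt.congr {k : ℕ} {a b : X → E [⋀^Fin k]→L[ℝ] ℝ} {x : X} (ha : SmAt a x)
    (h : b =ᶠ[𝓝 x] a) : SmAt b x := by
  have h1 : (chartAt E x).symm (chartAt E x x) = x :=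
    (chartAt E x).left_inv (mem_chart_source E x)
  exact ContDiffAt.congr_of_eventuallyEq ha
    (loc_congr (mem_chart_target E x) (by rw [h1]; exact h))

theorem dF_congr {k : ℕ} {a b : X → E [⋀^Fin k]→L[ℝ] ℝ} {x : X} (h : a =ᶠ[𝓝 x] b) :
    dF a x = dF b x := by
  have h1 : (chartAt E x).symm (chartAt E x x) = x :=
    (chartAt E x).left_inv (mem_chart_source E x)
  exact (loc_congr (mem_chart_target E x) (by rw [h1]; exact h)).extDeriv_eq

theorem SmAt.add {k : ℕ} {a b : X → E [⋀^Fin k]→L[ℝ] ℝ} {x : X} (ha : SmAt a x) (hb : SmAt b x) :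
    SmAt (a + b) x := by
  rw [SmAt, loc_add]
  exact ContDiffAt.add ha hb

theorem SmAt.smul {k : ℕ} {a : X → E [⋀^Fin k]→L[ℝ] ℝ} {x : X} (ha : SmAt a x) (c : ℝ) :
    SmAt (c • a) x := by
  rw [SmAt, loc_smul]
  exact ContDiffAt.const_smul c ha

theorem smAt_zero {k : ℕ} (x : X) : SmAt (0 : X → E [⋀^Fin k]→L[ℝ] ℝ) x := by
  rw [SmAt, loc_zero]
  exact contDiffAt_const

theorem SmAt.diff {k : ℕ} {a : X → E [⋀^Fin k]→L[ℝ] ℝ} {x : X} (ha : SmAt a x) :
    DifferentiableAt ℝ (loc (chartAt E x) a) (chartAt E x x) :=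
  ContDiffAt.differentiableAt ha (by simp)

theorem dF_add {k : ℕ} {a b : X → E [⋀^Fin k]→L[ℝ] ℝ} {x : X} (ha : SmAt a x) (hb : SmAt b x) :
    dF (a + b) x = dF a x + dF b x := by
  rw [dF, loc_add, extDeriv_add ha.diff hb.diff]
  rfl

theorem dF_smul {k : ℕ} (c : ℝ) (a : X → E [⋀^Fin k]→L[ℝ] ℝ) (x : X) :
    dF (c • a) x = c • dF a x := by
  rw [dF, loc_smul, extDeriv_smul]
  rfl

section charts

variable [IsManifold 𝓘(ℝ, E) ∞ X]

theorem trR_contDiffOn {e e' : OpenPartialHomeomorph X E} (he : e ∈ atlas E X)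
    (he' : e' ∈ atlas E X) :
    ContDiffOn ℝ ∞ (fun z => e' (e.symm z)) (e.target ∩ e.symm ⁻¹' e'.source) := by
  have h := HasGroupoid.compatible (G := contDiffGroupoid ∞ 𝓘(ℝ, E)) he he'
  rw [contDiffGroupoid, mem_groupoid_of_pregroupoid] at h
  have h1 := h.1
  simp only [contDiffPregroupoid] at h1
  have h2 : ContDiffOn ℝ ∞ ((e' : X → E) ∘ (e.symm : E → X))
      (e.target ∩ e.symm ⁻¹' e'.source) := by
    simpa using h1
  exact h2

theorem trR {e e' : OpenPartialHomeomorph X E} (he : e ∈ atlas E X)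
    (he' : e' ∈ atlas E X) {z : E} (hz : z ∈ e.target) (hz' : e.symm z ∈ e'.source) :
    ContDiffAt ℝ ∞ (fun z => e' (e.symm z)) z :=
  (trR_contDiffOn he he').contDiffAt
    ((e.symm.isOpen_inter_preimage e'.open_source).mem_nhds ⟨hz, hz'⟩)

theorem loc_change {k : ℕ} {e e' : OpenPartialHomeomorph X E} (he : e ∈ atlas E X)
    (he' : e' ∈ atlas E X) (a : X → E [⋀^Fin k]→L[ℝ] ℝ) {z : E} (hz : z ∈ e.target)
    (hz' : e.symm z ∈ e'.source) :
    loc e a z = (loc e' a (e' (e.symm z))).compContinuousLinearMap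
      (fderiv ℝ (fun y => e' (e.symm y)) z) := by
  have h1 : e'.symm (e' (e.symm z)) = e.symm z := e'.left_inv hz'
  rw [loc, loc, comp_comp_alt, h1]
  congr 1
  set c := chartAt E (e.symm z)
  have hc : c ∈ atlas E X := chart_mem_atlas E _
  have hcz : e.symm z ∈ c.source := mem_chart_source E _
  have h2 : DifferentiableAt ℝ (fun y => c (e'.symm y)) (e' (e.symm z)) :=
    (trR he' hc (e'.map_source hz') (by rw [h1]; exact hcz)).differentiableAt (by simp)
  have h3 : DifferentiableAt ℝ (fun y => e' (e.symm y)) z :=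
    (trR he he' hz hz').differentiableAt (by simp)
  rw [← fderiv_comp (𝕜 := ℝ) (g := fun y => c (e'.symm y)) (f := fun y => e' (e.symm y)) z h2 h3]
  apply Filter.EventuallyEq.fderiv_eq
  have h4 := (e.symm.continuousAt hz).eventually (e'.open_source.mem_nhds hz')
  filter_upwards [h4] with y hy
  show c (e.symm y) = c (e'.symm (e' (e.symm y)))
  rw [e'.left_inv hy]

omit [IsManifold 𝓘(ℝ, E) ∞ X] in
theorem loc_self {k : ℕ} (a : X → E [⋀^Fin k]→L[ℝ] ℝ) (x : X) :
    loc (chartAt E x) a (chartAt E x x) = a x := by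
  have h1 : (chartAt E x).symm (chartAt E x x) = x :=
    (chartAt E x).left_inv (mem_chart_source E x)
  rw [loc, h1]
  have h2 : (fun y => chartAt E x ((chartAt E x).symm y)) =ᶠ[𝓝 (chartAt E x x)] id := by
    filter_upwards [(chartAt E x).open_target.mem_nhds (mem_chart_target E x)] with y hy
    exact (chartAt E x).right_inv hy
  rw [h2.fderiv_eq, fderiv_id]
  rfl

/-- The value of a form from its expression in any chart. -/
theorem eq_of_loc {k : ℕ} {e : OpenPartialHomeomorph X E} (he : e ∈ atlas E X)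
    (a : X → E [⋀^Fin k]→L[ℝ] ℝ) {x : X} (hx : x ∈ e.source) :
    a x = (loc e a (e x)).compContinuousLinearMap
      (fderiv ℝ (fun y => e ((chartAt E x).symm y)) (chartAt E x x)) := by
  have h1 : (chartAt E x).symm (chartAt E x x) = x :=
    (chartAt E x).left_inv (mem_chart_source E x)
  have h := loc_change (chart_mem_atlas E x) he a (mem_chart_target E x) (by rw [h1]; exact hx)
  rw [loc_self, h1] at h
  exact h

theorem loc_inj {k : ℕ} {e : OpenPartialHomeomorph X E} (he : e ∈ atlas E X)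
    {a b : X → E [⋀^Fin k]→L[ℝ] ℝ} {x : X} (hx : x ∈ e.source) (h : loc e a (e x) = loc e b (e x)) :
    a x = b x := by
  rw [eq_of_loc he a hx, eq_of_loc he b hx, h]

variable [FiniteDimensional ℝ E]

theorem contDiffAt_loc_of {k : ℕ} {e e' : OpenPartialHomeomorph X E} (he : e ∈ atlas E X)
    (he' : e' ∈ atlas E X) {a : X → E [⋀^Fin k]→L[ℝ] ℝ} {x : X} (hx : x ∈ e.source)
    (hx' : x ∈ e'.source) (h : ContDiffAt ℝ ∞ (loc e a) (e x)) :
    ContDiffAt ℝ ∞ (loc e' a) (e' x) := by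
  have h1 : e'.symm (e' x) = x := e'.left_inv hx'
  have h2 : loc e' a =ᶠ[𝓝 (e' x)] fun z => (loc e a (e (e'.symm z))).compContinuousLinearMap
      (fderiv ℝ (fun y => e (e'.symm y)) z) := by
    filter_upwards [(e'.symm.isOpen_inter_preimage e.open_source).mem_nhds
      ⟨e'.map_source hx', by rw [mem_preimage, h1]; exact hx⟩] with z hz
    exact loc_change he' he a hz.1 hz.2
  refine ContDiffAt.congr_of_eventuallyEq ?_ h2
  refine contDiffAt_pullback (trR he' he (e'.map_source hx') (by rw [h1]; exact hx)) ?_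
  rw [h1]
  exact h

theorem smAt_iff {k : ℕ} {e : OpenPartialHomeomorph X E} (he : e ∈ atlas E X)
    {a : X → E [⋀^Fin k]→L[ℝ] ℝ} {x : X} (hx : x ∈ e.source) :
    SmAt a x ↔ ContDiffAt ℝ ∞ (loc e a) (e x) :=
  ⟨fun h => contDiffAt_loc_of (chart_mem_atlas E x) he (mem_chart_source E x) hx h,
    fun h => contDiffAt_loc_of he (chart_mem_atlas E x) hx (mem_chart_source E x) h⟩

omit [FiniteDimensional ℝ E] in
theorem loc_dF {k : ℕ} {e : OpenPartialHomeomorph X E} (he : e ∈ atlas E X)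
    {a : X → E [⋀^Fin k]→L[ℝ] ℝ} {z : E} (hz : z ∈ e.target) (ha : SmAt a (e.symm z)) :
    loc e (dF a) z = extDeriv (loc e a) z := by
  set x := e.symm z with hx
  have h2 : loc e a =ᶠ[𝓝 z] fun y => (loc (chartAt E x) a (chartAt E x (e.symm y))
      ).compContinuousLinearMap (fderiv ℝ (fun y => chartAt E x (e.symm y)) y) := by
    filter_upwards [(e.symm.isOpen_inter_preimage (chartAt E x).open_source).mem_nhds
      ⟨hz, mem_chart_source E x⟩] with y hy
    exact loc_change he (chart_mem_atlas E x) a hy.1 hy.2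
  have h3 := extDeriv_pullback (r := ∞) (f := fun y => chartAt E x (e.symm y)) ha.diff
    (trR he (chart_mem_atlas E x) hz (mem_chart_source E x)) minS
  rw [h2.extDeriv_eq]
  exact h3.symm

/-- The exterior derivative of a form which is smooth on an open set is smooth there. -/
theorem smAt_dF {k : ℕ} {a : X → E [⋀^Fin k]→L[ℝ] ℝ} {V : Set X} (hV : IsOpen V)
    (ha : ∀ x ∈ V, SmAt a x) {x : X} (hx : x ∈ V) : SmAt (dF a) x := by
  have h1 : (chartAt E x).symm (chartAt E x x) = x :=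
    (chartAt E x).left_inv (mem_chart_source E x)
  have h2 : loc (chartAt E x) (dF a) =ᶠ[𝓝 (chartAt E x x)] extDeriv (loc (chartAt E x) a) := by
    filter_upwards [((chartAt E x).symm.isOpen_inter_preimage hV).mem_nhds
      ⟨mem_chart_target E x, by rw [mem_preimage, h1]; exact hx⟩] with z hz
    exact loc_dF (chart_mem_atlas E x) hz.1 (ha _ hz.2)
  exact (contDiffAt_extDeriv (ha x hx)).congr_of_eventuallyEq h2

omit [FiniteDimensional ℝ E] in
theorem dF_dF {k : ℕ} {a : X → E [⋀^Fin k]→L[ℝ] ℝ} {V : Set X} (hV : IsOpen V)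
    (ha : ∀ x ∈ V, SmAt a x) {x : X} (hx : x ∈ V) : dF (dF a) x = 0 := by
  have h1 : (chartAt E x).symm (chartAt E x x) = x :=
    (chartAt E x).left_inv (mem_chart_source E x)
  have h2 : loc (chartAt E x) (dF a) =ᶠ[𝓝 (chartAt E x x)] extDeriv (loc (chartAt E x) a) := by
    filter_upwards [((chartAt E x).symm.isOpen_inter_preimage hV).mem_nhds
      ⟨mem_chart_target E x, by rw [mem_preimage, h1]; exact hx⟩] with z hz
    exact loc_dF (chart_mem_atlas E x) hz.1 (ha _ hz.2)
  rw [dF, h2.extDeriv_eq]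
  exact extDeriv_extDeriv_apply (ha x hx) minS

/-- The form with a given local expression in the chart `e`. -/
noncomputable def unloc {k : ℕ} (e : OpenPartialHomeomorph X E) (g : E → E [⋀^Fin k]→L[ℝ] ℝ)
    (x : X) : E [⋀^Fin k]→L[ℝ] ℝ :=
  (g (e x)).compContinuousLinearMap
    (fderiv ℝ (fun y => e ((chartAt E x).symm y)) (chartAt E x x))

omit [FiniteDimensional ℝ E] in
theorem loc_unloc {k : ℕ} {e : OpenPartialHomeomorph X E} (he : e ∈ atlas E X)
    (g : E → E [⋀^Fin k]→L[ℝ] ℝ) {z : E} (hz : z ∈ e.target) : loc e (unloc e g) z = g z := by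
  have h1 : e (e.symm z) = z := e.right_inv hz
  set x := e.symm z with hx
  set c := chartAt E x with hc
  have hca : c ∈ atlas E X := chart_mem_atlas E x
  have hcx : x ∈ c.source := mem_chart_source E x
  have hex : x ∈ e.source := e.map_target hz
  have hcc : c.symm (c x) = x := c.left_inv hcx
  have h2 : DifferentiableAt ℝ (fun y => e (c.symm y)) (c x) :=
    (trR hca he (c.map_source hcx) (by rw [hcc]; exact hex)).differentiableAt (by simp)
  have h3 : DifferentiableAt ℝ (fun y => c (e.symm y)) z :=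
    (trR he hca hz hcx).differentiableAt (by simp)
  have h4 : loc e (unloc e g) z = ((g (e x)).compContinuousLinearMap
      (fderiv ℝ (fun y => e (c.symm y)) (c x))).compContinuousLinearMap
      (fderiv ℝ (fun y => c (e.symm y)) z) := rfl
  rw [h4, comp_comp_alt, h1]
  have h5 : (fderiv ℝ (fun y => e (c.symm y)) (c x)).comp (fderiv ℝ (fun y => c (e.symm y)) z)
      = ContinuousLinearMap.id ℝ E := by
    have h6 := fderiv_comp (𝕜 := ℝ) (g := fun y => e (c.symm y)) (f := fun y => c (e.symm y)) z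
      h2 h3
    rw [← hx] at h6
    rw [← h6]
    have h7 : ((fun y => e (c.symm y)) ∘ fun y => c (e.symm y)) =ᶠ[𝓝 z] id := by
      filter_upwards [(e.symm.isOpen_inter_preimage c.open_source).mem_nhds ⟨hz, hcx⟩] with y hy
      show e (c.symm (c (e.symm y))) = y
      rw [c.left_inv hy.2, e.right_inv hy.1]
    rw [h7.fderiv_eq, fderiv_id]
  rw [h5]
  rfl

/-- **Poincare lemma** on an open set which is convex in a chart. -/
theorem exists_prim {k : ℕ} {e : OpenPartialHomeomorph X E} (he : e ∈ atlas E X) {V : Set X}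
    (hV : IsOpen V) (hVe : V ⊆ e.source) (hconv : Convex ℝ (e '' V))
    {a : X → E [⋀^Fin (k + 1)]→L[ℝ] ℝ} (ha : ∀ x ∈ V, SmAt a x) (hc : ∀ x ∈ V, dF a x = 0) :
    ∃ b : X → E [⋀^Fin k]→L[ℝ] ℝ, (∀ x ∈ V, SmAt b x) ∧ ∀ x ∈ V, dF b x = a x := by
  rcases V.eq_empty_or_nonempty with hVn | ⟨x0, hx0⟩
  · exact ⟨0, by simp [hVn], by simp [hVn]⟩
  have hW : IsOpen (e '' V) := e.isOpen_image_of_subset_source hV hVe
  have hWt : ∀ z ∈ e '' V, z ∈ e.target ∧ e.symm z ∈ V ∧ e (e.symm z) = z := by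
    rintro _ ⟨x, hx, rfl⟩
    exact ⟨e.map_source (hVe hx), by rw [e.left_inv (hVe hx)]; exact hx,
      by rw [e.left_inv (hVe hx)]⟩
  have hst : StarConvex ℝ (e x0) (e '' V) := hconv.starConvex (mem_image_of_mem e hx0)
  have h1 : ContDiffOn ℝ ∞ (loc e a) (e '' V) := by
    intro z hz
    obtain ⟨hz1, hz2, hz3⟩ := hWt z hz
    have := (smAt_iff he (hVe hz2)).1 (ha _ hz2)
    rw [hz3] at this
    exact this.contDiffWithinAt
  have h2 : ∀ z ∈ e '' V, extDeriv (loc e a) z = 0 := by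
    intro z hz
    obtain ⟨hz1, hz2, hz3⟩ := hWt z hz
    rw [← loc_dF he hz1 (ha _ hz2), loc, hc _ hz2]
    rfl
  obtain ⟨γ, hγ1, hγ2⟩ := H68.exists_primitive hW hst h1 h2
  have h3 : ∀ x ∈ V, loc e (unloc e γ) =ᶠ[𝓝 (e x)] γ := by
    intro x hx
    filter_upwards [e.open_target.mem_nhds (e.map_source (hVe hx))] with z hz
    exact loc_unloc he γ hz
  have h4 : ∀ x ∈ V, SmAt (unloc e γ) x := by
    intro x hx
    rw [smAt_iff he (hVe hx)]
    exact (hγ1.contDiffAt (hW.mem_nhds (mem_image_of_mem e hx))).congr_of_eventuallyEq (h3 x hx)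
  refine ⟨unloc e γ, h4, fun x hx => ?_⟩
  have hxt : e x ∈ e.target := e.map_source (hVe hx)
  have hxs : e.symm (e x) = x := e.left_inv (hVe hx)
  refine loc_inj he (hVe hx) ?_
  rw [loc_dF he hxt (by rw [hxs]; exact h4 x hx), (h3 x hx).extDeriv_eq,
    hγ2 _ (mem_image_of_mem e hx)]

omit [IsManifold 𝓘(ℝ, E) ∞ X] [FiniteDimensional ℝ E] in
/-- The constant zero-form. -/
theorem loc_const {e : OpenPartialHomeomorph X E} (r : ℝ) :
    loc e (fun _ : X => ContinuousAlternatingMap.constOfIsEmpty ℝ E (Fin 0) r) =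
      fun _ => ContinuousAlternatingMap.constOfIsEmpty ℝ E (Fin 0) r := rfl

omit [IsManifold 𝓘(ℝ, E) ∞ X] [FiniteDimensional ℝ E] in
theorem smAt_const (r : ℝ) (x : X) :
    SmAt (fun _ : X => ContinuousAlternatingMap.constOfIsEmpty ℝ E (Fin 0) r) x := by
  show ContDiffAt ℝ ∞ (fun _ : E => ContinuousAlternatingMap.constOfIsEmpty ℝ E (Fin 0) r) _
  exact contDiffAt_const

omit [IsManifold 𝓘(ℝ, E) ∞ X] [FiniteDimensional ℝ E] in
theorem dF_const (r : ℝ) (x : X) :
    dF (fun _ : X => ContinuousAlternatingMap.constOfIsEmpty ℝ E (Fin 0) r) x = 0 := by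
  have h1 : loc (chartAt E x) (fun _ : X => ContinuousAlternatingMap.constOfIsEmpty ℝ E (Fin 0) r) =
      fun _ => ContinuousAlternatingMap.constOfIsEmpty ℝ E (Fin 0) r := rfl
  rw [dF, h1, extDeriv, fderiv_fun_const]
  ext v
  simp [ContinuousAlternatingMap.alternatizeUncurryFin_apply]

/-- A closed zero-form is constant on an open set which is convex in a chart. -/
theorem eq_const {e : OpenPartialHomeomorph X E} (he : e ∈ atlas E X) {V : Set X}
    (hV : IsOpen V) (hVe : V ⊆ e.source) (hconv : Convex ℝ (e '' V))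
    {a : X → E [⋀^Fin 0]→L[ℝ] ℝ} (ha : ∀ x ∈ V, SmAt a x) (hc : ∀ x ∈ V, dF a x = 0) :
    ∃ r : ℝ, ∀ x ∈ V, a x = ContinuousAlternatingMap.constOfIsEmpty ℝ E (Fin 0) r := by
  rcases V.eq_empty_or_nonempty with hVn | ⟨x0, hx0⟩
  · exact ⟨0, by simp [hVn]⟩
  have hW : IsOpen (e '' V) := e.isOpen_image_of_subset_source hV hVe
  have hWt : ∀ z ∈ e '' V, z ∈ e.target ∧ e.symm z ∈ V ∧ e (e.symm z) = z := by
    rintro _ ⟨x, hx, rfl⟩
    exact ⟨e.map_source (hVe hx), by rw [e.left_inv (hVe hx)]; exact hx,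
      by rw [e.left_inv (hVe hx)]⟩
  have h1 : ∀ z ∈ e '' V, DifferentiableAt ℝ (loc e a) z := by
    intro z hz
    obtain ⟨hz1, hz2, hz3⟩ := hWt z hz
    have := (smAt_iff he (hVe hz2)).1 (ha _ hz2)
    rw [hz3] at this
    exact this.differentiableAt (by simp)
  have h2 : ∀ z ∈ e '' V, fderiv ℝ (loc e a) z = 0 := by
    intro z hz
    obtain ⟨hz1, hz2, hz3⟩ := hWt z hz
    have h3 : extDeriv (loc e a) z = 0 := by
      rw [← loc_dF he hz1 (ha _ hz2), loc, hc _ hz2]
      rfl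
    ext v m
    have h4 := congrArg (fun g => g ![v]) h3
    simp only [extDeriv, ContinuousAlternatingMap.alternatizeUncurryFin_apply,
      Fin.sum_univ_one] at h4
    have hm : m = (Fin.removeNth 0 ![v]) := Subsingleton.elim _ _
    rw [hm]
    simpa using h4
  have h3 : ∀ z ∈ e '' V, loc e a z = loc e a (e x0) := by
    intro z hz
    have h5 := hconv.is_const_of_fderivWithin_eq_zero (𝕜 := ℝ) (f := loc e a)
      (fun z hz => (h1 z hz).differentiableWithinAt)
      (fun z hz => by rw [fderivWithin_of_isOpen hW hz, h2 z hz]) hz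
      (mem_image_of_mem e hx0)
    exact h5
  refine ⟨(loc e a (e x0)) 0, fun x hx => ?_⟩
  rw [eq_of_loc he a (hVe hx), h3 _ (mem_image_of_mem e hx)]
  ext v
  show loc e a (e x0) _ = loc e a (e x0) 0
  congr 1
  exact Subsingleton.elim _ _

end charts

end Vale.Agent.P267.H175
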