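import Vale.Agent.P267.H175.RLoc
import Vale.Agent.P267.H175.Nerve

/-!
The complex of real differential forms on a manifold, with the averaging operators of a smooth
partition of unity, is an instance of `FormPre`; it is `Good` for a chart-convex cover.
-/

open scoped Manifold ContDiff Topology
open Set Filter TopologicalSpace

namespace Vale.Agent.P267.H175

variable {E : Type*} [NormedAddCommGroup E] [NormedSpace ℝ E]
variable {X : Type*} [TopologicalSpace X] [ChartedSpace E X]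

theorem smAt_fsmul {k : ℕ} {ρ : X → ℝ} {a : X → E [⋀^Fin k]→L[ℝ] ℝ} {x : X}
    (hρ : ContMDiffAt 𝓘(ℝ, E) 𝓘(ℝ, ℝ) ∞ ρ x) (ha : SmAt a x) :
    SmAt (fun x => ρ x • a x) x := by
  have h := (contMDiffAt_iff.1 hρ).2
  have h1 : ContDiffAt ℝ ∞ (fun z => ρ ((chartAt E x).symm z)) (chartAt E x x) := by
    simpa [contDiffWithinAt_univ, Function.comp_def, chartAt_self_eq] using h
  have h2 : ContDiffAt ℝ ∞ (loc (chartAt E x) a) (chartAt E x x) := ha
  exact h1.smul h2

/-- The forms on the open set `V`: smooth on `V`, and zero outside. -/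
def FV (E : Type*) [NormedAddCommGroup E] [NormedSpace ℝ E] [ChartedSpace E X] (k : ℕ)
    (V : Opens X) : Submodule ℝ (X → E [⋀^Fin k]→L[ℝ] ℝ) where
  carrier := {a | (∀ x ∈ V, SmAt a x) ∧ ∀ x ∉ V, a x = 0}
  zero_mem' := ⟨fun x _ => smAt_zero x, fun x _ => rfl⟩
  add_mem' := fun {a b} ha hb => ⟨fun x hx => (ha.1 x hx).add (hb.1 x hx), fun x hx => by
    rw [Pi.add_apply, ha.2 x hx, hb.2 x hx, add_zero]⟩
  smul_mem' := fun c a ha => ⟨fun x hx => (ha.1 x hx).smul c, fun x hx => by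
    rw [Pi.smul_apply, ha.2 x hx, smul_zero]⟩

theorem mem_FV {k : ℕ} {V : Opens X} {a : X → E [⋀^Fin k]→L[ℝ] ℝ} :
    a ∈ FV E k V ↔ (∀ x ∈ V, SmAt a x) ∧ ∀ x ∉ V, a x = 0 := Iff.rfl

omit [ChartedSpace E X] in
theorem indicator_eventuallyEq {k : ℕ} {V : Opens X} (a : X → E [⋀^Fin k]→L[ℝ] ℝ) {x : X}
    (hx : x ∈ V) : (V : Set X).indicator a =ᶠ[𝓝 x] a := by
  filter_upwards [V.isOpen.mem_nhds hx] with y hy
  exact indicator_of_mem hy a

theorem indicator_mem_FV {k : ℕ} {V : Opens X} {a : X → E [⋀^Fin k]→L[ℝ] ℝ}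
    (ha : ∀ x ∈ V, SmAt a x) : (V : Set X).indicator a ∈ FV E k V :=
  ⟨fun x hx => (ha x hx).congr (indicator_eventuallyEq a hx), fun _ hx =>
    indicator_of_notMem hx a⟩

theorem FV_ext {k : ℕ} {V : Opens X} {a b : FV E k V} (h : ∀ x ∈ V, a.1 x = b.1 x) : a = b := by
  apply Subtype.ext
  funext x
  by_cases hx : x ∈ V
  · exact h x hx
  · rw [a.2.2 x hx, b.2.2 x hx]

/-- The form on `V` with given values on `V`. -/
noncomputable def mkF {k : ℕ} {V : Opens X} (a : X → E [⋀^Fin k]→L[ℝ] ℝ)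
    (ha : ∀ x ∈ V, SmAt a x) : FV E k V :=
  ⟨(V : Set X).indicator a, indicator_mem_FV ha⟩

theorem mkF_apply {k : ℕ} {V : Opens X} (a : X → E [⋀^Fin k]→L[ℝ] ℝ)
    (ha : ∀ x ∈ V, SmAt a x) {x : X} (hx : x ∈ V) : (mkF a ha).1 x = a x :=
  indicator_of_mem hx _

theorem mkF_eventuallyEq {k : ℕ} {V : Opens X} (a : X → E [⋀^Fin k]→L[ℝ] ℝ)
    (ha : ∀ x ∈ V, SmAt a x) {x : X} (hx : x ∈ V) : (mkF a ha).1 =ᶠ[𝓝 x] a :=
  indicator_eventuallyEq a hx

/-- Restriction of forms. -/
noncomputable def resF {k : ℕ} {V W : Opens X} (h : V ≤ W) : FV E k W →ₗ[ℝ] FV E k V where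
  toFun a := mkF a.1 fun x hx => a.2.1 x (h hx)
  map_add' a b := by
    refine FV_ext fun x hx => ?_
    rw [mkF_apply _ _ hx]
    show a.1 x + b.1 x = (mkF (V := V) a.1 _).1 x + (mkF (V := V) b.1 _).1 x
    rw [mkF_apply _ _ hx, mkF_apply _ _ hx]
  map_smul' c a := by
    refine FV_ext fun x hx => ?_
    rw [mkF_apply _ _ hx]
    show c • a.1 x = c • (mkF (V := V) a.1 _).1 x
    rw [mkF_apply _ _ hx]

theorem resF_apply_of_mem {k : ℕ} {V W : Opens X} (h : V ≤ W) (a : FV E k W) {x : X} (hx : x ∈ V) :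
    (resF h a).1 x = a.1 x := indicator_of_mem hx _

theorem resF_eventuallyEq {k : ℕ} {V W : Opens X} (h : V ≤ W) (a : FV E k W) {x : X}
    (hx : x ∈ V) : (resF h a).1 =ᶠ[𝓝 x] a.1 := indicator_eventuallyEq a.1 hx

theorem resF_apply_of_notMem {k : ℕ} {V W : Opens X} (h : V ≤ W) (a : FV E k W) {x : X}
    (hx : x ∉ V) : (resF h a).1 x = 0 := indicator_of_notMem hx _

variable [IsManifold 𝓘(ℝ, E) ∞ X] [FiniteDimensional ℝ E]

/-- The exterior derivative on forms on `V`. -/
noncomputable def dFV {k : ℕ} {V : Opens X} : FV E k V →ₗ[ℝ] FV E (k + 1) V where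
  toFun a := mkF (dF a.1) fun x hx => smAt_dF V.isOpen a.2.1 hx
  map_add' a b := by
    refine FV_ext fun x hx => ?_
    rw [mkF_apply _ _ hx]
    show dF (a.1 + b.1) x = (mkF (V := V) (dF a.1) _).1 x + (mkF (V := V) (dF b.1) _).1 x
    rw [mkF_apply _ _ hx, mkF_apply _ _ hx, dF_add (a.2.1 x hx) (b.2.1 x hx)]
  map_smul' c a := by
    refine FV_ext fun x hx => ?_
    rw [mkF_apply _ _ hx]
    show dF (c • a.1) x = c • (mkF (V := V) (dF a.1) _).1 x
    rw [mkF_apply _ _ hx, dF_smul]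

theorem dFV_apply {k : ℕ} {V : Opens X} (a : FV E k V) {x : X} (hx : x ∈ V) :
    (dFV a).1 x = dF a.1 x := mkF_apply _ (fun _ hx => smAt_dF V.isOpen a.2.1 hx) hx

theorem dFV_eventuallyEq {k : ℕ} {V : Opens X} (a : FV E k V) {x : X} (hx : x ∈ V) :
    (dFV a).1 =ᶠ[𝓝 x] dF a.1 := mkF_eventuallyEq _ (fun _ hx => smAt_dF V.isOpen a.2.1 hx) hx

omit [IsManifold 𝓘(ℝ, E) ∞ X] [FiniteDimensional ℝ E] in
/-- Averaging with a smooth partition of unity. -/
noncomputable def avgF {ι : Type*} {U : ι → Opens X}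
    (f : SmoothPartitionOfUnity ι 𝓘(ℝ, E) X univ)
    (hf : ∀ i, tsupport (f i) ⊆ U i) {k : ℕ} {V : Opens X} :
    (∀ j, FV E k (U j ⊓ V)) →ₗ[ℝ] FV E k V where
  toFun a := ⟨fun x => ∑ᶠ j, f j x • (a j).1 x, by
    constructor
    · intro x hx
      obtain ⟨t, ht, htf⟩ := f.locallyFinite x
      have h1 : (fun x => ∑ᶠ j, f j x • (a j).1 x) =ᶠ[𝓝 x]
          ∑ j ∈ htf.toFinset, (fun x => f j x • (a j).1 x) := by
        filter_upwards [ht] with y hy
        rw [Finset.sum_apply]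
        refine finsum_eq_sum_of_support_subset _ fun j hj => ?_
        rw [Finite.coe_toFinset]
        have hj' : f j y ≠ 0 := by
          intro h0
          exact hj (by simp [h0])
        exact ⟨y, hj', hy⟩
      refine SmAt.congr ?_ h1
      refine Finset.sum_induction _ (fun g => SmAt g x) (fun _ _ => SmAt.add) (smAt_zero x)
        fun j _ => ?_
      by_cases hj : x ∈ tsupport (f j)
      · exact smAt_fsmul ((f j).contMDiff x) ((a j).2.1 x ⟨hf j hj, hx⟩)
      · refine (smAt_zero (E := E) (k := k) x).congr ?_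
        have h2 : (f j : X → ℝ) =ᶠ[𝓝 x] 0 := notMem_tsupport_iff_eventuallyEq.1 hj
        filter_upwards [h2] with y hy
        rw [hy]
        simp
    · intro x hx
      have : (fun j => f j x • (a j).1 x) = fun _ => 0 := by
        funext j
        rw [(a j).2.2 x (fun h => hx h.2), smul_zero]
      show ∑ᶠ j, f j x • (a j).1 x = 0
      rw [this, finsum_zero]⟩
  map_add' a b := by
    refine FV_ext fun x hx => ?_
    show ∑ᶠ j, f j x • ((a j).1 x + (b j).1 x) = ∑ᶠ j, f j x • (a j).1 x + ∑ᶠ j, f j x • (b j).1 x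
    have hfin : (Function.support fun j => f j x).Finite := f.locallyFinite.point_finite x
    rw [← finsum_add_distrib]
    · exact finsum_congr fun j => smul_add _ _ _
    · exact hfin.subset fun j hj h0 => hj (by simp only at h0; simp [h0])
    · exact hfin.subset fun j hj h0 => hj (by simp only at h0; simp [h0])
  map_smul' c a := by
    refine FV_ext fun x hx => ?_
    show ∑ᶠ j, f j x • (c • (a j).1 x) = c • ∑ᶠ j, f j x • (a j).1 x
    rw [smul_finsum' c]
    · exact finsum_congr fun j => smul_comm _ _ _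
    · have hfin : (Function.support fun j => f j x).Finite := f.locallyFinite.point_finite x
      exact hfin.subset fun j hj h0 => hj (by simp only at h0; simp [h0])

omit [IsManifold 𝓘(ℝ, E) ∞ X] [FiniteDimensional ℝ E] in
theorem avgF_apply {ι : Type*} {U : ι → Opens X}
    (f : SmoothPartitionOfUnity ι 𝓘(ℝ, E) X univ)
    (hf : ∀ i, tsupport (f i) ⊆ U i) {k : ℕ} {V : Opens X} (a : ∀ j, FV E k (U j ⊓ V)) (x : X) :
    (avgF f hf a).1 x = ∑ᶠ j, f j x • (a j).1 x := rfl

omit [IsManifold 𝓘(ℝ, E) ∞ X] [FiniteDimensional ℝ E] in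
/-- The constant zero-form on `V`. -/
noncomputable def cstF {V : Opens X} : ℝ →ₗ[ℝ] FV E 0 V where
  toFun r := mkF (fun _ => ContinuousAlternatingMap.constOfIsEmpty ℝ E (Fin 0) r)
    fun x _ => smAt_const r x
  map_add' r s := by
    refine FV_ext fun x hx => ?_
    rw [mkF_apply _ _ hx]
    show _ = (mkF (V := V) (fun _ => ContinuousAlternatingMap.constOfIsEmpty ℝ E (Fin 0) r) _).1 x +
      (mkF (V := V) (fun _ => ContinuousAlternatingMap.constOfIsEmpty ℝ E (Fin 0) s) _).1 x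
    rw [mkF_apply _ _ hx, mkF_apply _ _ hx]
    rfl
  map_smul' c r := by
    refine FV_ext fun x hx => ?_
    rw [mkF_apply _ _ hx]
    show _ = c • (mkF (V := V)
      (fun _ => ContinuousAlternatingMap.constOfIsEmpty ℝ E (Fin 0) r) _).1 x
    rw [mkF_apply _ _ hx]
    rfl

omit [IsManifold 𝓘(ℝ, E) ∞ X] [FiniteDimensional ℝ E] in
theorem cstF_apply {V : Opens X} (r : ℝ) {x : X} (hx : x ∈ V) :
    (cstF (E := E) (V := V) r).1 x = ContinuousAlternatingMap.constOfIsEmpty ℝ E (Fin 0) r :=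
  mkF_apply _ (fun x _ => smAt_const r x) hx

omit [IsManifold 𝓘(ℝ, E) ∞ X] [FiniteDimensional ℝ E] in
theorem cstF_eventuallyEq {V : Opens X} (r : ℝ) {x : X} (hx : x ∈ V) :
    (cstF (E := E) (V := V) r).1 =ᶠ[𝓝 x]
      fun _ => ContinuousAlternatingMap.constOfIsEmpty ℝ E (Fin 0) r :=
  mkF_eventuallyEq _ (fun x _ => smAt_const r x) hx

/-- The complex of real forms with the averaging operators of a smooth partition of unity. -/
noncomputable def formPre {ι : Type*} {U : ι → Opens X}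
    (f : SmoothPartitionOfUnity ι 𝓘(ℝ, E) X univ) (hf : ∀ i, tsupport (f i) ⊆ U i) :
    FormPre X U where
  A k V := FV E k V
  res h := resF h
  res_self h a := FV_ext fun x hx => resF_apply_of_mem h a hx
  res_res h h' a := FV_ext fun x hx => by
    rw [resF_apply_of_mem h _ hx, resF_apply_of_mem h' _ (h hx), resF_apply_of_mem _ _ hx]
  d := dFV
  d_d a := FV_ext fun x hx => by
    rw [dFV_apply _ hx, dF_congr (dFV_eventuallyEq a hx)]
    exact dF_dF (Opens.isOpen _) a.2.1 hx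
  res_d h a := FV_ext fun x hx => by
    rw [resF_apply_of_mem h _ hx, dFV_apply _ (h hx), dFV_apply _ hx]
    exact (dF_congr (resF_eventuallyEq h a hx)).symm
  avg := avgF f hf
  avg_res a := FV_ext fun x hx => by
    rw [avgF_apply]
    have h1 : (fun j => f j x • (resF (E := E) (V := U j ⊓ _) inf_le_right a).1 x) =
        fun j => f j x • a.1 x := by
      funext j
      by_cases hj : f j x = 0
      · rw [hj, zero_smul, zero_smul]
      · rw [resF_apply_of_mem inf_le_right a (⟨hf j (subset_tsupport _ hj), hx⟩ : x ∈ U j ⊓ _)]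
    have hfin : (Function.support fun j => f j x).Finite := f.locallyFinite.point_finite x
    rw [h1, ← finsum_smul' hfin, f.sum_eq_one (mem_univ x), one_smul]
  res_avg h a := FV_ext fun x hx => by
    rw [resF_apply_of_mem h _ hx, avgF_apply, avgF_apply]
    refine finsum_congr fun j => ?_
    by_cases hj : f j x = 0
    · rw [hj, zero_smul, zero_smul]
    · rw [resF_apply_of_mem _ (a j) (⟨hf j (subset_tsupport _ hj), hx⟩ : x ∈ U j ⊓ _)]
  cst := cstF
  d_cst r := FV_ext fun x hx => by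
    rw [dFV_apply _ hx, dF_congr (cstF_eventuallyEq r hx), dF_const]
    rfl
  res_cst h r := FV_ext fun x hx => by
    rw [resF_apply_of_mem h _ hx, cstF_apply r (h hx), cstF_apply r hx]

end Vale.Agent.P267.H175
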