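import Mathlib

/-!
The complement of a thin analytic set in a connected open set of a complex manifold is connected.
-/

open scoped Manifold Topology ContDiff
open Set Filter Metric

namespace Vale.Agent.P267.H175

/-- If `V \ Z` is preconnected for small open sets `V` around every point of `O`, and `Z` is
nowhere locally everything, then `O \ Z` is preconnected. -/
theorem isPreconnected_diff_of_local {M : Type*} [TopologicalSpace M] {O Z : Set M}
    (hO : IsOpen O) (hOc : IsPreconnected O)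
    (hloc : ∀ x ∈ O, ∃ V, IsOpen V ∧ x ∈ V ∧ V ⊆ O ∧ IsPreconnected (V \ Z))
    (hd : ∀ x ∈ O, x ∈ closure Zᶜ) : IsPreconnected (O \ Z) := by
  intro u v hu hv huv hne1 hne2
  by_contra hcon
  set A : Set M := {x | ∃ V, IsOpen V ∧ x ∈ V ∧ V ⊆ O ∧ V \ Z ⊆ u} with hA
  set B : Set M := {x | ∃ V, IsOpen V ∧ x ∈ V ∧ V ⊆ O ∧ V \ Z ⊆ v} with hB
  have hAo : IsOpen A := by
    rw [isOpen_iff_forall_mem_open]
    rintro x ⟨V, h1, h2, h3, h4⟩
    exact ⟨V, fun y hy => ⟨V, h1, hy, h3, h4⟩, h1, h2⟩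
  have hBo : IsOpen B := by
    rw [isOpen_iff_forall_mem_open]
    rintro x ⟨V, h1, h2, h3, h4⟩
    exact ⟨V, fun y hy => ⟨V, h1, hy, h3, h4⟩, h1, h2⟩
  have hcov : O ⊆ A ∪ B := by
    intro x hx
    obtain ⟨V, h1, h2, h3, h4⟩ := hloc x hx
    by_cases hVu : ((V \ Z) ∩ v).Nonempty
    · by_cases hVv : ((V \ Z) ∩ u).Nonempty
      · exfalso
        obtain ⟨y, hy1, hy2⟩ := h4 u v hu hv
          (fun y hy => huv ⟨h3 hy.1, hy.2⟩) hVv hVu
        exact hcon ⟨y, ⟨h3 hy1.1, hy1.2⟩, hy2⟩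
      · right
        refine ⟨V, h1, h2, h3, fun y hy => ?_⟩
        rcases huv ⟨h3 hy.1, hy.2⟩ with h5 | h5
        · exact absurd ⟨y, hy, h5⟩ hVv
        · exact h5
    · left
      refine ⟨V, h1, h2, h3, fun y hy => ?_⟩
      rcases huv ⟨h3 hy.1, hy.2⟩ with h5 | h5
      · exact h5
      · exact absurd ⟨y, hy, h5⟩ hVu
  obtain ⟨a, ha1, ha2⟩ := hne1
  obtain ⟨b, hb1, hb2⟩ := hne2
  obtain ⟨x, hx, ⟨V1, h1, h2, h3, h4⟩, ⟨V2, k1, k2, k3, k4⟩⟩ := hOc A B hAo hBo hcov
    ⟨a, ha1.1, O ∩ u, hO.inter hu, ⟨ha1.1, ha2⟩, inter_subset_left, fun y hy => hy.1.2⟩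
    ⟨b, hb1.1, O ∩ v, hO.inter hv, ⟨hb1.1, hb2⟩, inter_subset_left, fun y hy => hy.1.2⟩
  obtain ⟨y, hy1, hy2⟩ := mem_closure_iff.1 (hd x hx) (V1 ∩ V2) (h1.inter k1) ⟨h2, k2⟩
  exact hcon ⟨y, ⟨h3 hy1.1, hy2⟩, h4 ⟨hy1.1, hy2⟩, k4 ⟨hy1.2, hy2⟩⟩

/-- A disc minus a countable set is preconnected. -/
theorem isPreconnected_disc_diff (w : ℂ) {r : ℝ} (hr : 0 < r) {A : Set ℂ} (hA : A.Countable) :
    IsPreconnected (ball w r \ A) := by
  set e := OpenPartialHomeomorph.univBall w r with he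
  have hsrc : e.source = univ := OpenPartialHomeomorph.univBall_source w r
  have htgt : e.target = ball w r := OpenPartialHomeomorph.univBall_target w hr
  have hinj : Function.Injective e := by
    intro a b hab
    exact e.injOn (by rw [hsrc]; trivial) (by rw [hsrc]; trivial) hab
  have hA' : (e ⁻¹' A).Countable := hA.preimage_of_injOn hinj.injOn
  have hr2 : 1 < Module.rank ℝ ℂ := by
    rw [Complex.rank_real_complex]; exact Cardinal.one_lt_two
  have h1 : IsPreconnected (e ⁻¹' A)ᶜ :=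
    (hA'.isPathConnected_compl_of_one_lt_rank hr2).isConnected.isPreconnected
  have h2 : ball w r \ A = e '' (e ⁻¹' A)ᶜ := by
    ext x
    constructor
    · rintro ⟨hx, hxA⟩
      rw [← htgt] at hx
      exact ⟨e.symm x, by simp only [mem_compl_iff, mem_preimage, e.right_inv hx]; exact hxA,
        e.right_inv hx⟩
    · rintro ⟨y, hy, rfl⟩
      refine ⟨?_, hy⟩
      rw [← htgt]
      exact e.map_source (by rw [hsrc]; trivial)
  rw [h2]
  refine h1.image _ ?_
  exact e.continuousOn.mono (by rw [hsrc]; exact subset_univ _)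

/-- A connected open set of the plane minus the zeros of a holomorphic function is preconnected. -/
theorem isPreconnected_plane_diff {T : Set ℂ} (hT : IsOpen T) (hTc : IsPreconnected T) {h : ℂ → ℂ}
    (hh : DifferentiableOn ℂ h T) {a : ℂ} (ha : a ∈ T) (ha0 : h a ≠ 0) :
    IsPreconnected (T \ {z | h z = 0}) := by
  have han : AnalyticOnNhd ℂ h T := hh.analyticOnNhd hT
  have hiso : ∀ x ∈ T, ∀ᶠ y in 𝓝[≠] x, h y ≠ 0 := by
    intro x hx
    rcases (han x hx).eventually_eq_zero_or_eventually_ne_zero with h1 | h1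
    · exfalso
      exact ha0 (han.eqOn_zero_of_preconnected_of_eventuallyEq_zero hTc hx h1 ha)
    · exact h1
  refine isPreconnected_diff_of_local hT hTc (fun x hx => ?_) (fun x hx => ?_)
  · have h1 : ∀ᶠ y in 𝓝 x, (y ≠ x → h y ≠ 0) ∧ y ∈ T := by
      refine Filter.Eventually.and ?_ (hT.mem_nhds hx)
      have := hiso x hx
      rwa [eventually_nhdsWithin_iff] at this
    obtain ⟨r, hr, hb⟩ := Metric.eventually_nhds_iff_ball.1 h1
    refine ⟨ball x r, isOpen_ball, mem_ball_self hr, fun y hy => (hb y hy).2, ?_⟩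
    by_cases hx0 : h x = 0
    · have h2 : ball x r \ {z | h z = 0} = ball x r \ {x} := by
        ext y
        constructor
        · rintro ⟨h3, h4⟩
          refine ⟨h3, fun h5 => h4 ?_⟩
          rw [mem_singleton_iff.1 h5]
          exact hx0
        · rintro ⟨h3, h4⟩
          exact ⟨h3, (hb y h3).1 h4⟩
      rw [h2]
      exact isPreconnected_disc_diff x hr (countable_singleton x)
    · have h2 : ball x r \ {z | h z = 0} = ball x r := by
        ext y
        constructor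
        · exact fun h3 => h3.1
        · intro h3
          refine ⟨h3, fun h4 => ?_⟩
          by_cases h5 : y = x
          · exact hx0 (by rw [← h5]; exact h4)
          · exact (hb y h3).1 h5 h4
      rw [h2]
      exact isPreconnected_ball
  · rw [mem_closure_iff_frequently]
    exact ((hiso x hx).frequently.filter_mono nhdsWithin_le_nhds).mono fun y hy => hy

section manifold

variable {E : Type*} [NormedAddCommGroup E] [NormedSpace ℂ E]

/-- A ball minus the zeros of a holomorphic function is preconnected. -/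
theorem isPreconnected_ball_diff {c : E} {r : ℝ} {G : E → ℂ}
    (hG : DifferentiableOn ℂ G (ball c r)) : IsPreconnected (ball c r \ {z | G z = 0}) := by
  refine isPreconnected_of_forall_pair fun a ha b hb => ?_
  set ℓ : ℂ → E := fun t => a + t • (b - a) with hℓ
  have hℓd : Differentiable ℂ ℓ := by
    intro t
    exact (differentiableAt_id.smul_const (b - a)).const_add a
  have hℓc : Continuous ℓ := hℓd.continuous
  set T : Set ℂ := ℓ ⁻¹' ball c r with hT
  have hTo : IsOpen T := isOpen_ball.preimage hℓc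
  let _ : NormedSpace ℝ E := NormedSpace.restrictScalars ℝ ℂ E
  have hTc : IsPreconnected T := by
    have h1 : Convex ℝ T := by
      intro s hs t ht p q hp hq hpq
      have h2 := convex_ball c r hs ht hp hq hpq
      show ℓ (p • s + q • t) ∈ ball c r
      have h3 : ℓ (p • s + q • t) = p • ℓ s + q • ℓ t := by
        have hp' : p = 1 - q := by linarith
        subst hp'
        have e1 : ∀ (k : ℝ) (x : E), k • x = (k : ℂ) • x := fun k x => rfl
        simp only [hℓ, e1, Complex.real_smul, Complex.ofReal_sub, Complex.ofReal_one]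
        module
      rw [h3]
      exact h2
    exact h1.isPreconnected
  have h0 : (0 : ℂ) ∈ T := by
    show ℓ 0 ∈ ball c r
    simp only [hℓ, zero_smul, add_zero]
    exact ha.1
  have h0' : G (ℓ 0) ≠ 0 := by
    simp only [hℓ, zero_smul, add_zero]
    exact ha.2
  have h1 : ℓ 1 = b := by simp [hℓ]
  have h1T : (1 : ℂ) ∈ T := by
    show ℓ 1 ∈ ball c r
    rw [h1]
    exact hb.1
  have hd : DifferentiableOn ℂ (fun t => G (ℓ t)) T :=
    hG.comp hℓd.differentiableOn fun t ht => ht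
  have hpre := isPreconnected_plane_diff hTo hTc hd h0 h0'
  refine ⟨ℓ '' (T \ {t | G (ℓ t) = 0}), ?_, ⟨0, ⟨h0, h0'⟩, by simp [hℓ]⟩, ⟨1, ⟨h1T, ?_⟩, h1⟩,
    hpre.image _ hℓc.continuousOn⟩
  · rintro _ ⟨t, ht, rfl⟩
    exact ⟨ht.1, ht.2⟩
  · show G (ℓ 1) ≠ 0
    rw [h1]
    exact hb.2

/-- The identity theorem on a ball. -/
theorem eq_zero_on_ball {c : E} {r : ℝ} {G : E → ℂ} (hG : DifferentiableOn ℂ G (ball c r))
    {y : E} (hy : y ∈ ball c r) (h0 : ∀ᶠ z in 𝓝 y, G z = 0) : ∀ z ∈ ball c r, G z = 0 := by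
  intro z hz
  set ℓ : ℂ → E := fun t => y + t • (z - y) with hℓ
  have hℓd : Differentiable ℂ ℓ := by
    intro t
    exact (differentiableAt_id.smul_const (z - y)).const_add y
  have hℓc : Continuous ℓ := hℓd.continuous
  set T : Set ℂ := ℓ ⁻¹' ball c r with hT
  have hTo : IsOpen T := isOpen_ball.preimage hℓc
  let _ : NormedSpace ℝ E := NormedSpace.restrictScalars ℝ ℂ E
  have hTc : IsPreconnected T := by
    have h1 : Convex ℝ T := by
      intro s hs t ht p q hp hq hpq
      have h2 := convex_ball c r hs ht hp hq hpq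
      show ℓ (p • s + q • t) ∈ ball c r
      have h3 : ℓ (p • s + q • t) = p • ℓ s + q • ℓ t := by
        have hp' : p = 1 - q := by linarith
        subst hp'
        have e1 : ∀ (k : ℝ) (x : E), k • x = (k : ℂ) • x := fun k x => rfl
        simp only [hℓ, e1, Complex.real_smul, Complex.ofReal_sub, Complex.ofReal_one]
        module
      rw [h3]
      exact h2
    exact h1.isPreconnected
  have e0 : ℓ 0 = y := by simp [hℓ]
  have e1 : ℓ 1 = z := by simp [hℓ]
  have hd : DifferentiableOn ℂ (fun t => G (ℓ t)) T :=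
    hG.comp hℓd.differentiableOn fun t ht => ht
  have h2 : (fun t => G (ℓ t)) =ᶠ[𝓝 0] 0 := by
    have h3 : Tendsto ℓ (𝓝 0) (𝓝 y) := by
      rw [← e0]
      exact hℓc.continuousAt
    exact h3.eventually h0
  have h4 := (hd.analyticOnNhd hTo).eqOn_zero_of_preconnected_of_eventuallyEq_zero hTc
    (show (0 : ℂ) ∈ T by show ℓ 0 ∈ ball c r; rw [e0]; exact hy) h2
    (show (1 : ℂ) ∈ T by show ℓ 1 ∈ ball c r; rw [e1]; exact hz)
  have h5 : G (ℓ 1) = 0 := h4
  rwa [e1] at h5

variable {M : Type*} [TopologicalSpace M] [ChartedSpace E M]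

/-- `Z` is thin at `x`: near `x` it is contained in the zero set of a holomorphic function which is
not identically zero. -/
def ThinAt (E : Type*) [NormedAddCommGroup E] [NormedSpace ℂ E] {M : Type*} [TopologicalSpace M]
    [ChartedSpace E M] (Z : Set M) (x : M) : Prop :=
  ∃ g : M → ℂ, (∀ᶠ y in 𝓝 x, MDifferentiableAt 𝓘(ℂ, E) 𝓘(ℂ) g y) ∧
    (∀ᶠ y in 𝓝 x, y ∈ Z → g y = 0) ∧ ∃ᶠ y in 𝓝 x, g y ≠ 0

theorem ThinAt.mem_closure_compl {Z : Set M} {x : M} (h : ThinAt E Z x) : x ∈ closure Zᶜ := by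
  obtain ⟨g, -, h2, h3⟩ := h
  rw [mem_closure_iff_frequently]
  exact (h3.and_eventually h2).mono fun y hy hyZ => hy.1 (hy.2 hyZ)

variable [IsManifold 𝓘(ℂ, E) 1 M]

/-- Small neighbourhoods minus a thin set are preconnected. -/
theorem ThinAt.exists_nhds {Z : Set M} {x : M} (h : ThinAt E Z x) {W : Set M} (hW : W ∈ 𝓝 x) :
    ∃ V, IsOpen V ∧ x ∈ V ∧ V ⊆ W ∧ IsPreconnected (V \ Z) := by
  obtain ⟨g, h1, h2, h3⟩ := h
  set e := chartAt E x with he
  have hes : e.source ∈ 𝓝 x := chart_source_mem_nhds E x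
  have hall : {y | MDifferentiableAt 𝓘(ℂ, E) 𝓘(ℂ) g y ∧ (y ∈ Z → g y = 0) ∧ y ∈ W} ∈ 𝓝 x :=
    h1.and (h2.and hW)
  have hx0 : x ∈ e.source := mem_chart_source E x
  have het : e x ∈ e.target := e.map_source hx0
  have hexx : e.symm (e x) = x := e.left_inv hx0
  have hpre : ∀ᶠ z in 𝓝 (e x), z ∈ e.target ∧
      (MDifferentiableAt 𝓘(ℂ, E) 𝓘(ℂ) g (e.symm z) ∧ (e.symm z ∈ Z → g (e.symm z) = 0) ∧
        e.symm z ∈ W) := by
    refine Filter.Eventually.and (e.open_target.mem_nhds het) ?_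
    have h4 : Tendsto e.symm (𝓝 (e x)) (𝓝 x) := by
      have := e.continuousAt_symm het
      rwa [ContinuousAt, hexx] at this
    exact h4.eventually hall
  obtain ⟨r, hr, hb⟩ := Metric.eventually_nhds_iff_ball.1 hpre
  set G : E → ℂ := fun z => g (e.symm z) with hG
  have hGd : DifferentiableOn ℂ G (ball (e x) r) := by
    intro z hz
    obtain ⟨k1, k2, -, -⟩ := hb z hz
    have k3 : MDifferentiableAt 𝓘(ℂ, E) 𝓘(ℂ, E) e.symm z :=
      mdifferentiableAt_atlas_symm (chart_mem_atlas E x) k1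
    have k4 : MDifferentiableAt 𝓘(ℂ, E) 𝓘(ℂ) (g ∘ e.symm) z := k2.comp z k3
    exact (mdifferentiableAt_iff_differentiableAt.1 k4).differentiableWithinAt
  refine ⟨e.symm '' ball (e x) r, ?_, ⟨e x, mem_ball_self hr, hexx⟩, ?_, ?_⟩
  · exact e.isOpen_image_symm_of_subset_target isOpen_ball fun z hz => (hb z hz).1
  · rintro _ ⟨z, hz, rfl⟩
    exact (hb z hz).2.2.2
  · have hc : ContinuousOn e.symm (ball (e x) r) :=
      e.continuousOn_symm.mono fun z hz => (hb z hz).1
    have k1 : IsPreconnected (e.symm '' (ball (e x) r \ {z | G z = 0})) :=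
      (isPreconnected_ball_diff hGd).image _ (hc.mono sdiff_subset)
    refine k1.subset_closure ?_ ?_
    · rintro _ ⟨z, hz, rfl⟩
      refine ⟨⟨z, hz.1, rfl⟩, fun hzZ => hz.2 ((hb z hz.1).2.2.1 hzZ)⟩
    · rintro _ ⟨⟨z, hz, rfl⟩, -⟩
      have k2 : z ∈ closure (ball (e x) r \ {z | G z = 0}) := by
        by_contra hcon
        have k3 : ∀ᶠ w in 𝓝 z, G w = 0 := by
          rw [mem_closure_iff_frequently, not_frequently] at hcon
          filter_upwards [hcon, isOpen_ball.mem_nhds hz] with w hw hw'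
          by_contra hne
          exact hw ⟨hw', hne⟩
        have k4 := eq_zero_on_ball hGd hz k3
        apply h3
        have k5 : ∀ᶠ y in 𝓝 x, y ∈ e.source ∧ e y ∈ ball (e x) r :=
          Filter.Eventually.and (e.open_source.mem_nhds hx0)
            ((e.continuousAt hx0).eventually (isOpen_ball.mem_nhds (mem_ball_self hr)))
        filter_upwards [k5] with y hy hne
        have k6 := k4 (e y) hy.2
        simp only [hG, e.left_inv hy.1] at k6
        exact hne k6
      exact (hc z hz).mono sdiff_subset |>.mem_closure_image k2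

/-- **The complement of a thin analytic set in a connected open set is connected.** -/
theorem isPreconnected_diff {O Z : Set M} (hO : IsOpen O) (hOc : IsPreconnected O)
    (hZ : ∀ x ∈ O, ThinAt E Z x) : IsPreconnected (O \ Z) := by
  refine isPreconnected_diff_of_local hO hOc (fun x hx => ?_)
    fun x hx => (hZ x hx).mem_closure_compl
  obtain ⟨V, h1, h2, h3, h4⟩ := (hZ x hx).exists_nhds (hO.mem_nhds hx)
  exact ⟨V, h1, h2, h3, h4⟩

/-- Version for a closed set with local equations at its points. -/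
theorem isPreconnected_diff_of_isClosed {O Z : Set M} (hO : IsOpen O) (hOc : IsPreconnected O)
    (hZc : IsClosed Z) (hZ : ∀ x ∈ O, x ∈ Z → ThinAt E Z x) : IsPreconnected (O \ Z) := by
  refine isPreconnected_diff (E := E) hO hOc fun x hx => ?_
  by_cases hxZ : x ∈ Z
  · exact hZ x hx hxZ
  · refine ⟨fun _ => 1, Eventually.of_forall fun y => mdifferentiableAt_const, ?_,
      Frequently.of_forall fun y => one_ne_zero⟩
    filter_upwards [hZc.isOpen_compl.mem_nhds hxZ] with y hy hyZ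
    exact absurd hyZ hy

/-- Small neighbourhoods on which the identity theorem holds. -/
theorem exists_nhds_identity {g : M → ℂ} {x : M}
    (h1 : ∀ᶠ y in 𝓝 x, MDifferentiableAt 𝓘(ℂ, E) 𝓘(ℂ) g y) :
    ∃ V, IsOpen V ∧ x ∈ V ∧ ∀ y ∈ V, (∀ᶠ z in 𝓝 y, g z = 0) → ∀ z ∈ V, g z = 0 := by
  set e := chartAt E x with he
  have hx0 : x ∈ e.source := mem_chart_source E x
  have het : e x ∈ e.target := e.map_source hx0
  have hexx : e.symm (e x) = x := e.left_inv hx0
  have hpre : ∀ᶠ z in 𝓝 (e x), z ∈ e.target ∧ MDifferentiableAt 𝓘(ℂ, E) 𝓘(ℂ) g (e.symm z) := by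
    refine Filter.Eventually.and (e.open_target.mem_nhds het) ?_
    have h4 : Tendsto e.symm (𝓝 (e x)) (𝓝 x) := by
      have := e.continuousAt_symm het
      rwa [ContinuousAt, hexx] at this
    exact h4.eventually h1
  obtain ⟨r, hr, hb⟩ := Metric.eventually_nhds_iff_ball.1 hpre
  set G : E → ℂ := fun z => g (e.symm z) with hG
  have hGd : DifferentiableOn ℂ G (ball (e x) r) := by
    intro z hz
    obtain ⟨k1, k2⟩ := hb z hz
    have k3 : MDifferentiableAt 𝓘(ℂ, E) 𝓘(ℂ, E) e.symm z :=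
      mdifferentiableAt_atlas_symm (chart_mem_atlas E x) k1
    have k4 : MDifferentiableAt 𝓘(ℂ, E) 𝓘(ℂ) (g ∘ e.symm) z := k2.comp z k3
    exact (mdifferentiableAt_iff_differentiableAt.1 k4).differentiableWithinAt
  refine ⟨e.symm '' ball (e x) r, ?_, ⟨e x, mem_ball_self hr, hexx⟩, ?_⟩
  · exact e.isOpen_image_symm_of_subset_target isOpen_ball fun z hz => (hb z hz).1
  · rintro _ ⟨z, hz, rfl⟩ h0 _ ⟨w, hw, rfl⟩
    refine eq_zero_on_ball hGd hz ?_ w hw
    exact (e.continuousAt_symm (hb z hz).1).eventually h0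

/-- The identity theorem on a connected open set. -/
theorem eq_zero_of_preconnected {O : Set M} (hO : IsOpen O) (hOc : IsPreconnected O) {g : M → ℂ}
    (hg : ∀ x ∈ O, MDifferentiableAt 𝓘(ℂ, E) 𝓘(ℂ) g x) {a : M} (ha : a ∈ O)
    (h0 : ∀ᶠ y in 𝓝 a, g y = 0) : ∀ x ∈ O, ∀ᶠ y in 𝓝 x, g y = 0 := by
  set S : Set M := {x | ∀ᶠ y in 𝓝 x, g y = 0} with hS
  have hSo : IsOpen S := isOpen_iff_mem_nhds.2 fun x hx => eventually_eventually_nhds.2 hx
  set S' : Set M := {x | ∃ V, IsOpen V ∧ x ∈ V ∧ ∀ y ∈ V, ¬ ∀ᶠ z in 𝓝 y, g z = 0} with hS'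
  have hSo' : IsOpen S' := by
    rw [isOpen_iff_forall_mem_open]
    rintro x ⟨V, h1, h2, h3⟩
    exact ⟨V, fun y hy => ⟨V, h1, hy, h3⟩, h1, h2⟩
  have hcov : O ⊆ S ∪ S' := by
    intro x hx
    have h1 : ∀ᶠ y in 𝓝 x, MDifferentiableAt 𝓘(ℂ, E) 𝓘(ℂ) g y := by
      filter_upwards [hO.mem_nhds hx] with y hy using hg y hy
    obtain ⟨V, h2, h3, h4⟩ := exists_nhds_identity h1
    by_cases h5 : ∃ y ∈ V, ∀ᶠ z in 𝓝 y, g z = 0
    · obtain ⟨y, hy, hy'⟩ := h5
      left
      filter_upwards [h2.mem_nhds h3] with z hz using h4 y hy hy' z hz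
    · right
      exact ⟨V, h2, h3, fun y hy hy' => h5 ⟨y, hy, hy'⟩⟩
  intro x hx
  by_contra hcon
  have hx' : x ∈ S' := (hcov hx).resolve_left hcon
  obtain ⟨z, -, hz1, V, hV1, hV2, hV3⟩ := hOc S S' hSo hSo' hcov ⟨a, ha, h0⟩ ⟨x, hx, hx'⟩
  exact hV3 z hV2 hz1

/-- **A connected open set minus the zeros of a holomorphic function is connected.** -/
theorem isPreconnected_ne_zero {O : Set M} (hO : IsOpen O) (hOc : IsPreconnected O) {g : M → ℂ}
    (hg : ∀ x ∈ O, MDifferentiableAt 𝓘(ℂ, E) 𝓘(ℂ) g x) {a : M} (ha : a ∈ O)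
    (h0 : ∃ᶠ y in 𝓝 a, g y ≠ 0) : IsPreconnected {x | x ∈ O ∧ g x ≠ 0} := by
  have h1 : {x | x ∈ O ∧ g x ≠ 0} = O \ {x | g x = 0} := rfl
  rw [h1]
  refine isPreconnected_diff (E := E) hO hOc fun x hx => ⟨g, ?_, Eventually.of_forall fun y hy => hy,
    ?_⟩
  · filter_upwards [hO.mem_nhds hx] with y hy using hg y hy
  · intro h2
    have h3 : ∀ᶠ y in 𝓝 x, g y = 0 := h2.mono fun y hy => not_not.1 hy
    exact h0 ((eq_zero_of_preconnected hO hOc hg hx h3 a ha).mono fun y hy hne => hne hy)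

end manifold

end Vale.Agent.P267.H175
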